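import Vale.Agent.Lib.P034.Defs

/-!
The greedy decomposition of a family by maximal link cost.
-/

namespace Vale.Agent.Lib.P034

open Finset

variable {α : Type*} [DecidableEq α] [Fintype α]

/-- The greedy decomposition: `c` assigns to each set its core, `Ψ` the link cost of the core. -/
theorem exists_decomp {d : ℝ} (hd : 0 < d) (A : Finset (Finset α)) :
    ∃ (c : Finset α → Finset α) (Ψ : Finset α → ℝ),
      (∀ B ∈ A, c B ⊆ B) ∧ (∀ B ∈ A, 1 ≤ Ψ (c B)) ∧
      (∀ t, 0 ≤ t → ∀ V : Finset α,
        ∑ B ∈ A.filter (fun B => Ψ (c B) ≤ t ∧ V ⊆ B), d ^ B.card ≤ t * d ^ V.card) ∧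
      (∀ B ∈ A, ∑ B' ∈ A.filter (fun B' => c B' = c B), d ^ B'.card = Ψ (c B) * d ^ (c B).card) := by
  induction' hn : A.card using Nat.strong_induction_on with n ih generalizing A
  by_cases hA : A = ∅
  · subst hA
    refine ⟨id, fun _ => 1, by simp, by simp, ?_, by simp⟩
    intro t ht V
    simp only [filter_empty, sum_empty]
    positivity
  obtain ⟨B0, hB0⟩ := nonempty_iff_ne_empty.mpr hA
  -- the link cost
  set ψ : Finset α → ℝ := fun V => (∑ B ∈ A.filter (fun B => V ⊆ B), d ^ B.card) / d ^ V.card
    with hψ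
  obtain ⟨V0, -, hV0⟩ := Finset.exists_max_image (univ : Finset (Finset α)) ψ ⟨∅, mem_univ _⟩
  have hV0' : ∀ V, ψ V ≤ ψ V0 := fun V => hV0 V (mem_univ _)
  have hdpow : ∀ k : ℕ, 0 < d ^ k := fun k => pow_pos hd k
  have hψB0 : 1 ≤ ψ B0 := by
    have : d ^ B0.card ≤ ∑ B ∈ A.filter (fun B => B0 ⊆ B), d ^ B.card := by
      apply Finset.single_le_sum (f := fun B : Finset α => d ^ B.card)
        (fun i _ => (hdpow _).le)
      simp [hB0]
    rw [hψ]
    simp only
    rw [le_div_iff₀ (hdpow _)]
    linarith
  have hψV0 : 1 ≤ ψ V0 := hψB0.trans (hV0' B0)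
  have hmass : ∀ V, ∑ B ∈ A.filter (fun B => V ⊆ B), d ^ B.card = ψ V * d ^ V.card := by
    intro V
    rw [hψ]
    simp only
    field_simp
  -- the group of V0 is nonempty
  have hG0 : (A.filter (fun B => V0 ⊆ B)).Nonempty := by
    by_contra h
    rw [not_nonempty_iff_eq_empty] at h
    have := hmass V0
    rw [h, sum_empty] at this
    have hp := hdpow V0.card
    nlinarith
  set R := A.filter (fun B => ¬ V0 ⊆ B) with hR
  have hRcard : R.card < n := by
    rw [← hn]
    obtain ⟨B1, hB1⟩ := hG0
    rw [mem_filter] at hB1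
    apply card_lt_card
    refine ⟨filter_subset _ _, fun hsub => ?_⟩
    have := hsub hB1.1
    rw [hR, mem_filter] at this
    exact this.2 hB1.2
  obtain ⟨c', Ψ', hc', hΨ', hP1', hP2'⟩ := ih R.card hRcard R rfl
  have hRmem : ∀ B, B ∈ R ↔ B ∈ A ∧ ¬ V0 ⊆ B := by
    intro B; rw [hR, mem_filter]
  have hc'ne : ∀ B ∈ R, c' B ≠ V0 := by
    intro B hB h
    have h1 := hc' B hB
    rw [h] at h1
    exact ((hRmem B).1 hB).2 h1
  refine ⟨fun B => if V0 ⊆ B then V0 else c' B,
    fun U => if U = V0 then ψ V0 else Ψ' U, ?_, ?_, ?_, ?_⟩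
  · intro B hB
    by_cases h : V0 ⊆ B
    · simp [h]
    · simp only [h, if_false]
      exact hc' B ((hRmem B).2 ⟨hB, h⟩)
  · intro B hB
    by_cases h : V0 ⊆ B
    · simp [h, hψV0]
    · have hBR := (hRmem B).2 ⟨hB, h⟩
      simp only [h, if_false, hc'ne B hBR]
      exact hΨ' B hBR
  · intro t ht V
    by_cases hcase : ψ V0 ≤ t
    · calc ∑ B ∈ A.filter (fun B => (if (if V0 ⊆ B then V0 else c' B) = V0 then ψ V0
              else Ψ' (if V0 ⊆ B then V0 else c' B)) ≤ t ∧ V ⊆ B), d ^ B.card
          ≤ ∑ B ∈ A.filter (fun B => V ⊆ B), d ^ B.card := by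
            apply sum_le_sum_of_subset_of_nonneg
            · intro B hB
              rw [mem_filter] at hB ⊢
              exact ⟨hB.1, hB.2.2⟩
            · intro i _ _
              exact (hdpow _).le
        _ = ψ V * d ^ V.card := hmass V
        _ ≤ t * d ^ V.card := by
            apply mul_le_mul_of_nonneg_right ((hV0' V).trans hcase) (hdpow _).le
    · rw [not_le] at hcase
      calc ∑ B ∈ A.filter (fun B => (if (if V0 ⊆ B then V0 else c' B) = V0 then ψ V0
              else Ψ' (if V0 ⊆ B then V0 else c' B)) ≤ t ∧ V ⊆ B), d ^ B.card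
          ≤ ∑ B ∈ R.filter (fun B => Ψ' (c' B) ≤ t ∧ V ⊆ B), d ^ B.card := by
            apply sum_le_sum_of_subset_of_nonneg
            · intro B hB
              rw [mem_filter] at hB ⊢
              obtain ⟨hBA, h1, h2⟩ := hB
              by_cases h : V0 ⊆ B
              · simp only [h, if_true] at h1
                linarith
              · have hBR := (hRmem B).2 ⟨hBA, h⟩
                simp only [h, if_false, hc'ne B hBR] at h1
                exact ⟨hBR, h1, h2⟩
            · intro i _ _
              exact (hdpow _).le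
        _ ≤ t * d ^ V.card := hP1' t ht V
  · intro B hB
    by_cases h : V0 ⊆ B
    · simp only [h, if_true]
      have hfil : A.filter (fun B' => (if V0 ⊆ B' then V0 else c' B') = V0)
          = A.filter (fun B' => V0 ⊆ B') := by
        apply filter_congr
        intro B' hB'
        by_cases h' : V0 ⊆ B'
        · simp [h']
        · simp only [h', if_false, iff_false]
          exact hc'ne B' ((hRmem B').2 ⟨hB', h'⟩)
      rw [hfil, hmass V0]
    · have hBR := (hRmem B).2 ⟨hB, h⟩
      simp only [h, if_false, hc'ne B hBR]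
      have hfil : A.filter (fun B' => (if V0 ⊆ B' then V0 else c' B') = c' B)
          = R.filter (fun B' => c' B' = c' B) := by
        ext B'
        rw [mem_filter, mem_filter, hRmem]
        constructor
        · rintro ⟨hB'A, h1⟩
          by_cases h' : V0 ⊆ B'
          · simp only [h', if_true] at h1
            exact absurd h1.symm (hc'ne B hBR)
          · simp only [h', if_false] at h1
            exact ⟨⟨hB'A, h'⟩, h1⟩
        · rintro ⟨⟨hB'A, h'⟩, h1⟩
          refine ⟨hB'A, ?_⟩
          simp only [h', if_false]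
          exact h1
      rw [hfil]
      exact hP2' B hBR

end Vale.Agent.Lib.P034
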