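import Mathlib

/-!
Definitions for integral versus fractional expectation thresholds.
The ground set is a finite type `α`; a family is a finset of finsets of `α`.
-/

namespace Vale.Agent.Lib.P034

open Finset

variable {α : Type*} [DecidableEq α] [Fintype α]

/-- `F` is `p`-small: some family `G` covers `F` (each member of `F` contains a member of `G`)
and `∑_{S ∈ G} p^|S| ≤ 1/2`. -/
def IsSmall (F : Finset (Finset α)) (p : ℝ) : Prop :=
  ∃ G : Finset (Finset α), (∀ H ∈ F, ∃ S ∈ G, S ⊆ H) ∧ ∑ S ∈ G, p ^ S.card ≤ 1 / 2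

/-- `g` is a fractional cover of `F`: `g ≥ 0` and `∑_{S ⊆ H} g S ≥ 1` for each `H ∈ F`. -/
def IsFracCover (F : Finset (Finset α)) (g : Finset α → ℝ) : Prop :=
  (∀ S, 0 ≤ g S) ∧ ∀ H ∈ F, 1 ≤ ∑ S ∈ H.powerset, g S

/-- The cost at `p` of a function on sets: `∑_S g S * p^|S|` (with `p^0 = 1`). -/
noncomputable def fracCost (g : Finset α → ℝ) (p : ℝ) : ℝ :=
  ∑ S : Finset α, g S * p ^ S.card

/-- The integral expectation threshold, as the supremum of the `p ∈ [0,1]` at which `F` is small. -/
noncomputable def intThreshold (F : Finset (Finset α)) : ℝ :=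
  sSup {p : ℝ | 0 ≤ p ∧ p ≤ 1 ∧ IsSmall F p}

/-- The fractional expectation threshold, as the supremum of the `p ∈ [0,1]` at which some
fractional cover of `F` has cost at most `1/2`. -/
noncomputable def fracThreshold (F : Finset (Finset α)) : ℝ :=
  sSup {p : ℝ | 0 ≤ p ∧ p ≤ 1 ∧ ∃ g, IsFracCover F g ∧ fracCost g p ≤ 1 / 2}

/-- The iterated logarithm: the least `k` such that the `k`-fold iterate of `⌈log₂⌉`
sends `n` to a number at most `1`. -/
noncomputable def logStar (n : ℕ) : ℕ :=
  sInf {k : ℕ | (Nat.clog 2)^[k] n ≤ 1}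

end Vale.Agent.Lib.P034
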