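import Vale.Agent.Lib.P034.Main

/-!
The bound in terms of the largest size of a minimal member: an initial family of rich sets
of cost at most `2^(ℓ^2)`, then the iteration of `Main`.
-/

namespace Vale.Agent.Lib.P034

open Finset

variable {α : Type*} [DecidableEq α] [Fintype α]

/-- The richness of `U`: the expected weight inside `U` together with a `z`-random set. -/
noncomputable def richVal (g : Finset α → ℝ) (z : ℝ) (U : Finset α) : ℝ :=
  ∑ S : Finset α, g S * z ^ (S \ U).card

open scoped Classical in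
/-- The sets reached from `U` in at most `n` steps, each step adding a set of weight at least
`β`, stopping at the first set of richness at least `1/2`. -/
noncomputable def reach (g : Finset α → ℝ) (z β : ℝ) : ℕ → Finset α → Finset (Finset α)
  | 0, U => if 1 / 2 ≤ richVal g z U then {U} else ∅
  | n + 1, U => if 1 / 2 ≤ richVal g z U then {U} else
      (univ.filter (fun S => β ≤ g S ∧ ¬ S ⊆ U)).biUnion (fun S => reach g z β n (U ∪ S))

theorem reach_rich {g : Finset α → ℝ} {z β : ℝ} :
    ∀ (n : ℕ) (U W : Finset α), W ∈ reach g z β n U → 1 / 2 ≤ richVal g z W := by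
  intro n
  induction n with
  | zero =>
    intro U W hW
    unfold reach at hW
    split_ifs at hW with h
    · rw [mem_singleton] at hW
      rwa [hW]
    · simp at hW
  | succ n ih =>
    intro U W hW
    unfold reach at hW
    split_ifs at hW with h
    · rw [mem_singleton] at hW
      rwa [hW]
    · obtain ⟨S, -, hS⟩ := mem_biUnion.1 hW
      exact ih _ _ hS

theorem reach_superset {g : Finset α → ℝ} {z β : ℝ} :
    ∀ (n : ℕ) (U W : Finset α), W ∈ reach g z β n U → U ⊆ W := by
  intro n
  induction n with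
  | zero =>
    intro U W hW
    unfold reach at hW
    split_ifs at hW with h
    · rw [mem_singleton] at hW
      rw [hW]
    · simp at hW
  | succ n ih =>
    intro U W hW
    unfold reach at hW
    split_ifs at hW with h
    · rw [mem_singleton] at hW
      rw [hW]
    · obtain ⟨S, -, hS⟩ := mem_biUnion.1 hW
      exact subset_union_left.trans (ih _ _ hS)

theorem sum_biUnion_le_aux {ι β : Type*} [DecidableEq ι] [DecidableEq β] (s : Finset ι)
    (f : ι → Finset β) (h : β → ℝ) (h0 : ∀ b, 0 ≤ h b) :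
    ∑ b ∈ s.biUnion f, h b ≤ ∑ i ∈ s, ∑ b ∈ f i, h b := by
  induction s using Finset.induction_on with
  | empty => simp
  | insert a s ha ih =>
    rw [biUnion_insert, sum_insert ha]
    have h1 := sum_union_inter (s₁ := f a) (s₂ := s.biUnion f) (f := h)
    have h2 : 0 ≤ ∑ b ∈ f a ∩ s.biUnion f, h b := sum_nonneg fun b _ => h0 b
    linarith

theorem card_sdiff_add {U S W : Finset α} (hW : U ∪ S ⊆ W) :
    (W \ U).card = (S \ U).card + (W \ (U ∪ S)).card := by
  have h1 : W \ U = (S \ U) ∪ (W \ (U ∪ S)) := by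
    ext x
    simp only [mem_sdiff, mem_union, not_or]
    constructor
    · rintro ⟨h1, h2⟩
      by_cases hx : x ∈ S
      · exact Or.inl ⟨hx, h2⟩
      · exact Or.inr ⟨h1, h2, hx⟩
    · rintro (⟨h1, h2⟩ | ⟨h1, h2, -⟩)
      · exact ⟨hW (mem_union_right _ h1), h2⟩
      · exact ⟨h1, h2⟩
  rw [h1, card_union_of_disjoint]
  rw [disjoint_left]
  intro x hx hx'
  simp only [mem_sdiff, mem_union, not_or] at hx hx'
  exact hx'.2.2 hx.1

/-- The cost of the reached family. -/
theorem reach_cost {g : Finset α → ℝ} {z β : ℝ} (hg : ∀ S, 0 ≤ g S) (hz : 0 ≤ z) (hβ : 0 < β)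
    (hβ1 : β ≤ 1 / 2) :
    ∀ (n : ℕ) (U : Finset α), ∑ W ∈ reach g z β n U, z ^ (W \ U).card ≤ (1 / (2 * β)) ^ n := by
  have hb1 : 1 ≤ 1 / (2 * β) := by
    rw [le_div_iff₀ (by positivity)]
    linarith
  intro n
  induction n with
  | zero =>
    intro U
    unfold reach
    split_ifs with h
    · simp
    · simp
  | succ n ih =>
    intro U
    unfold reach
    split_ifs with h
    · simp only [sum_singleton, sdiff_self, bot_eq_empty, card_empty, pow_zero]
      exact one_le_pow₀ hb1
    · rw [not_le] at h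
      set G := univ.filter (fun S => β ≤ g S ∧ ¬ S ⊆ U) with hG
      have h1 := sum_biUnion_le_aux G (fun S => reach g z β n (U ∪ S))
        (fun W => z ^ (W \ U).card) (fun W => pow_nonneg hz _)
      refine h1.trans ?_
      have h2 : ∀ S ∈ G, ∑ W ∈ reach g z β n (U ∪ S), z ^ (W \ U).card ≤
          z ^ (S \ U).card * (1 / (2 * β)) ^ n := by
        intro S _
        calc ∑ W ∈ reach g z β n (U ∪ S), z ^ (W \ U).card
            = ∑ W ∈ reach g z β n (U ∪ S), z ^ (S \ U).card * z ^ (W \ (U ∪ S)).card := by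
              apply sum_congr rfl
              intro W hW
              rw [card_sdiff_add (reach_superset n _ _ hW), pow_add]
          _ = z ^ (S \ U).card * ∑ W ∈ reach g z β n (U ∪ S), z ^ (W \ (U ∪ S)).card := by
              rw [mul_sum]
          _ ≤ z ^ (S \ U).card * (1 / (2 * β)) ^ n :=
              mul_le_mul_of_nonneg_left (ih _) (pow_nonneg hz _)
      refine (sum_le_sum h2).trans ?_
      rw [← sum_mul, pow_succ, mul_comm ((1 / (2 * β)) ^ n)]
      apply mul_le_mul_of_nonneg_right _ (pow_nonneg (by positivity) _)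
      have h3 : ∑ S ∈ G, z ^ (S \ U).card ≤ (1 / β) * richVal g z U := by
        unfold richVal
        rw [mul_sum]
        calc ∑ S ∈ G, z ^ (S \ U).card ≤ ∑ S ∈ G, (1 / β) * (g S * z ^ (S \ U).card) := by
              apply sum_le_sum
              intro S hS
              have hS' : β ≤ g S := (mem_filter.1 hS).2.1
              have h4 : 1 ≤ (1 / β) * g S := by
                rw [div_mul_eq_mul_div, one_mul, le_div_iff₀ hβ]
                linarith
              have h5 : 0 ≤ z ^ (S \ U).card := pow_nonneg hz _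
              calc z ^ (S \ U).card = 1 * z ^ (S \ U).card := by ring
                _ ≤ ((1 / β) * g S) * z ^ (S \ U).card :=
                    mul_le_mul_of_nonneg_right h4 h5
                _ = (1 / β) * (g S * z ^ (S \ U).card) := by ring
          _ ≤ ∑ S : Finset α, (1 / β) * (g S * z ^ (S \ U).card) := by
              apply sum_le_sum_of_subset_of_nonneg (subset_univ _)
              intro S _ _
              have := hg S
              have h5 : 0 ≤ z ^ (S \ U).card := pow_nonneg hz _
              positivity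
      have h6 : (1 / β) * richVal g z U ≤ (1 / β) * (1 / 2) :=
        mul_le_mul_of_nonneg_left h.le (by positivity)
      have h7 : (1 / β) * (1 / 2) = 1 / (2 * β) := by
        field_simp
      linarith

/-- The weight inside `U` is at most its richness. -/
theorem inner_le_richVal {g : Finset α → ℝ} {z : ℝ} (hg : ∀ S, 0 ≤ g S) (hz : 0 ≤ z)
    (U : Finset α) : ∑ S ∈ U.powerset, g S ≤ richVal g z U := by
  unfold richVal
  calc ∑ S ∈ U.powerset, g S = ∑ S ∈ U.powerset, g S * z ^ (S \ U).card := by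
        apply sum_congr rfl
        intro S hS
        rw [sdiff_eq_empty_iff_subset.2 (mem_powerset.1 hS)]
        simp
    _ ≤ ∑ S : Finset α, g S * z ^ (S \ U).card := by
        apply sum_le_sum_of_subset_of_nonneg (subset_univ _)
        intro S _ _
        exact mul_nonneg (hg S) (pow_nonneg hz _)

/-- Every set of weight at least one and size at most `ℓ` contains a reached set. -/
theorem reach_cover {g : Finset α → ℝ} {z : ℝ} (hg : ∀ S, 0 ≤ g S) (hz : 0 ≤ z) {ℓ : ℕ}
    {T : Finset α} (hT : 1 ≤ ∑ S ∈ T.powerset, g S) (hTc : T.card ≤ ℓ) :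
    ∀ (n : ℕ) (U : Finset α), U ⊆ T → (T \ U).card ≤ n →
      ∃ W ∈ reach g z (1 / 2 ^ (ℓ + 1)) n U, W ⊆ T := by
  intro n
  induction n with
  | zero =>
    intro U hU hn
    have hUT : U = T := by
      apply subset_antisymm hU
      have : T \ U = ∅ := by
        rw [← card_eq_zero]
        omega
      exact sdiff_eq_empty_iff_subset.1 this
    subst hUT
    refine ⟨U, ?_, subset_rfl⟩
    unfold reach
    have h1 := inner_le_richVal (z := z) hg hz U
    rw [if_pos (by linarith)]
    simp
  | succ n ih =>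
    intro U hU hn
    by_cases hrich : 1 / 2 ≤ richVal g z U
    · refine ⟨U, ?_, hU⟩
      unfold reach
      rw [if_pos hrich]
      simp
    · rw [not_le] at hrich
      -- find a heavy set inside `T`, not inside `U`
      have hex : ∃ S ∈ T.powerset, ¬ S ⊆ U ∧ 1 / 2 ^ (ℓ + 1) ≤ g S := by
        by_contra hcon
        push_neg at hcon
        have h1 : ∑ S ∈ T.powerset, g S =
            ∑ S ∈ T.powerset.filter (fun S => S ⊆ U), g S +
            ∑ S ∈ T.powerset.filter (fun S => ¬ S ⊆ U), g S :=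
          (sum_filter_add_sum_filter_not _ _ _).symm
        have h2 : T.powerset.filter (fun S => S ⊆ U) ⊆ U.powerset := by
          intro S hS
          rw [mem_filter] at hS
          exact mem_powerset.2 hS.2
        have h3 : ∑ S ∈ T.powerset.filter (fun S => S ⊆ U), g S ≤ ∑ S ∈ U.powerset, g S :=
          sum_le_sum_of_subset_of_nonneg h2 (fun S _ _ => hg S)
        have h4 := inner_le_richVal (z := z) hg hz U
        have h5 : ∑ S ∈ T.powerset.filter (fun S => ¬ S ⊆ U), g S ≤
            ∑ _S ∈ T.powerset, (1 / 2 ^ (ℓ + 1) : ℝ) := by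
          calc ∑ S ∈ T.powerset.filter (fun S => ¬ S ⊆ U), g S
              ≤ ∑ _S ∈ T.powerset.filter (fun S => ¬ S ⊆ U), (1 / 2 ^ (ℓ + 1) : ℝ) := by
                apply sum_le_sum
                intro S hS
                rw [mem_filter] at hS
                exact (hcon S hS.1 hS.2).le
            _ ≤ ∑ _S ∈ T.powerset, (1 / 2 ^ (ℓ + 1) : ℝ) := by
                apply sum_le_sum_of_subset_of_nonneg (filter_subset _ _)
                intro _ _ _
                positivity
        have h6 : ∑ _S ∈ T.powerset, (1 / 2 ^ (ℓ + 1) : ℝ) ≤ 1 / 2 := by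
          rw [sum_const, card_powerset, nsmul_eq_mul]
          have h7 : ((2 ^ T.card : ℕ) : ℝ) ≤ 2 ^ ℓ := by
            push_cast
            exact pow_le_pow_right₀ (by norm_num) hTc
          calc ((2 ^ T.card : ℕ) : ℝ) * (1 / 2 ^ (ℓ + 1)) ≤ 2 ^ ℓ * (1 / 2 ^ (ℓ + 1)) :=
                mul_le_mul_of_nonneg_right h7 (by positivity)
            _ = 1 / 2 := by
                rw [pow_succ]
                field_simp
        linarith
      obtain ⟨S, hST, hSU, hSg⟩ := hex
      have hST' : S ⊆ T := mem_powerset.1 hST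
      have hU' : U ∪ S ⊆ T := union_subset hU hST'
      have hcard : (T \ (U ∪ S)).card ≤ n := by
        have hlt : (T \ (U ∪ S)).card < (T \ U).card := by
          apply card_lt_card
          refine ⟨?_, ?_⟩
          · intro x hx
            simp only [mem_sdiff, mem_union, not_or] at hx ⊢
            exact ⟨hx.1, hx.2.1⟩
          · intro hsub
            obtain ⟨x, hxS, hxU⟩ := not_subset.1 hSU
            have hx : x ∈ T \ U := mem_sdiff.2 ⟨hST' hxS, hxU⟩
            have := hsub hx
            simp only [mem_sdiff, mem_union, not_or] at this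
            exact this.2.2 hxS
        omega
      obtain ⟨W, hW, hWT⟩ := ih _ hU' hcard
      refine ⟨W, ?_, hWT⟩
      unfold reach
      rw [if_neg (not_le.2 hrich)]
      apply mem_biUnion.2
      exact ⟨S, mem_filter.2 ⟨mem_univ _, hSg, hSU⟩, hW⟩

/-- A family of rich sets has bounded packings. -/
theorem massBound_of_rich {g : Finset α → ℝ} {z r : ℝ} (hg : ∀ S, 0 ≤ g S) (hz : 0 ≤ z)
    (hr : 0 ≤ r) {A : Finset (Finset α)} (hA : ∀ W ∈ A, 1 / 2 ≤ richVal g z W)
    (hcost : fracCost g (r + z) ≤ 1 / 8) : MassBound A r := by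
  intro a ha
  have hinner : ∀ S : Finset α, ∑ W ∈ A, a W * z ^ (S \ W).card ≤ (r + z) ^ S.card := by
    intro S
    have h1 : ∀ W ∈ A, a W * z ^ (S \ W).card =
        ∑ Y ∈ S.powerset, (if S ∩ W = Y then a W * z ^ (S.card - Y.card) else 0) := by
      intro W _
      rw [sum_ite_eq]
      have hmem : S ∩ W ∈ S.powerset := mem_powerset.2 inter_subset_left
      rw [if_pos hmem]
      have hc : (S \ W).card = S.card - (S ∩ W).card := by
        have := card_sdiff_add_card_inter S W
        omega
      rw [hc]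
    calc ∑ W ∈ A, a W * z ^ (S \ W).card
        = ∑ W ∈ A, ∑ Y ∈ S.powerset, (if S ∩ W = Y then a W * z ^ (S.card - Y.card) else 0) :=
          sum_congr rfl h1
      _ = ∑ Y ∈ S.powerset, ∑ W ∈ A, (if S ∩ W = Y then a W * z ^ (S.card - Y.card) else 0) :=
          sum_comm
      _ ≤ ∑ Y ∈ S.powerset, r ^ Y.card * z ^ (S.card - Y.card) := by
          apply sum_le_sum
          intro Y hY
          have hzp : 0 ≤ z ^ (S.card - Y.card) := pow_nonneg hz _
          calc ∑ W ∈ A, (if S ∩ W = Y then a W * z ^ (S.card - Y.card) else 0)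
              ≤ ∑ W ∈ A, (if Y ⊆ W then a W * z ^ (S.card - Y.card) else 0) := by
                apply sum_le_sum
                intro W hW
                by_cases h2 : S ∩ W = Y
                · have h3 : Y ⊆ W := by
                    rw [← h2]
                    exact inter_subset_right
                  rw [if_pos h2, if_pos h3]
                · rw [if_neg h2]
                  split_ifs
                  · exact mul_nonneg (ha.1 W hW) hzp
                  · exact le_rfl
            _ = (∑ W ∈ A.filter (fun W => Y ⊆ W), a W) * z ^ (S.card - Y.card) := by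
                rw [sum_mul, sum_filter]
            _ ≤ r ^ Y.card * z ^ (S.card - Y.card) :=
                mul_le_mul_of_nonneg_right (ha.2 Y) hzp
      _ = (r + z) ^ S.card := sum_pow_mul_eq_add_pow r z S
  have hnn : ∀ W ∈ A, 0 ≤ a W := ha.1
  have h2 : ∑ W ∈ A, a W * (1 / 2) ≤ ∑ W ∈ A, a W * richVal g z W := by
    apply sum_le_sum
    intro W hW
    exact mul_le_mul_of_nonneg_left (hA W hW) (hnn W hW)
  have h3 : ∑ W ∈ A, a W * richVal g z W =
      ∑ S : Finset α, g S * ∑ W ∈ A, a W * z ^ (S \ W).card := by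
    unfold richVal
    simp_rw [mul_sum]
    rw [sum_comm]
    apply sum_congr rfl
    intro S _
    apply sum_congr rfl
    intro W _
    ring
  have h4 : ∑ S : Finset α, g S * ∑ W ∈ A, a W * z ^ (S \ W).card ≤ fracCost g (r + z) := by
    unfold fracCost
    apply sum_le_sum
    intro S _
    exact mul_le_mul_of_nonneg_left (hinner S) (hg S)
  rw [← sum_mul] at h2
  linarith

/-- The normalized cover, with no weight on the empty set. -/
noncomputable def normCover (g : Finset α → ℝ) (S : Finset α) : ℝ :=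
  if S = ∅ then 0 else g S / (1 - g ∅)

theorem empty_weight_le {g : Finset α → ℝ} {p : ℝ} (hg : ∀ S, 0 ≤ g S) (hp : 0 ≤ p)
    (hcost : fracCost g p ≤ 1 / 2) : g ∅ ≤ 1 / 2 := by
  have h1 : g ∅ * p ^ (∅ : Finset α).card ≤ fracCost g p := by
    unfold fracCost
    exact single_le_sum (f := fun S : Finset α => g S * p ^ S.card)
      (fun S _ => mul_nonneg (hg S) (pow_nonneg hp _)) (mem_univ _)
  simp only [card_empty, pow_zero, mul_one] at h1
  linarith

theorem normCover_nonneg {g : Finset α → ℝ} (hg : ∀ S, 0 ≤ g S) (h0 : g ∅ ≤ 1 / 2) (S : Finset α) :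
    0 ≤ normCover g S := by
  unfold normCover
  split_ifs
  · exact le_rfl
  · exact div_nonneg (hg S) (by linarith)

theorem normCover_sum {g : Finset α → ℝ} (h0 : g ∅ ≤ 1 / 2) {H : Finset α}
    (hH : 1 ≤ ∑ S ∈ H.powerset, g S) : 1 ≤ ∑ S ∈ H.powerset, normCover g S := by
  have hpos : 0 < 1 - g ∅ := by linarith
  have hmem : (∅ : Finset α) ∈ H.powerset := empty_mem_powerset H
  have h1 : ∑ S ∈ H.powerset, g S = g ∅ + ∑ S ∈ H.powerset.erase ∅, g S :=
    (add_sum_erase _ g hmem).symm
  have h2 : ∑ S ∈ H.powerset, normCover g S =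
      normCover g ∅ + ∑ S ∈ H.powerset.erase ∅, normCover g S :=
    (add_sum_erase _ (normCover g) hmem).symm
  have h3 : ∑ S ∈ H.powerset.erase ∅, normCover g S =
      (∑ S ∈ H.powerset.erase ∅, g S) / (1 - g ∅) := by
    rw [sum_div]
    apply sum_congr rfl
    intro S hS
    unfold normCover
    rw [if_neg (mem_erase.1 hS).1]
  have h4 : normCover g ∅ = 0 := by
    unfold normCover
    simp
  rw [h2, h3, h4, zero_add, le_div_iff₀ hpos]
  linarith

theorem normCover_cost {g : Finset α → ℝ} {p : ℝ} (hg : ∀ S, 0 ≤ g S) (hp : 0 ≤ p)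
    (hcost : fracCost g p ≤ 1 / 2) : fracCost (normCover g) (p / 4) ≤ 1 / 8 := by
  have h0 := empty_weight_le hg hp hcost
  have hpos : 0 < 1 - g ∅ := by linarith
  have hsplit : ∀ f : Finset α → ℝ, ∑ S : Finset α, f S = f ∅ + ∑ S ∈ univ.erase (∅ : Finset α), f S := by
    intro f
    rw [add_sum_erase _ f (mem_univ _)]
  have h1 : fracCost (normCover g) (p / 4) ≤
      (1 / 4) * (∑ S ∈ univ.erase (∅ : Finset α), g S * p ^ S.card) / (1 - g ∅) := by
    unfold fracCost
    rw [hsplit]
    have h2 : normCover g ∅ * (p / 4) ^ (∅ : Finset α).card = 0 := by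
      unfold normCover
      simp
    rw [h2, zero_add, mul_sum, sum_div]
    apply sum_le_sum
    intro S hS
    have hS0 : S ≠ ∅ := (mem_erase.1 hS).1
    have hcard : 1 ≤ S.card := card_pos.2 (nonempty_iff_ne_empty.2 hS0)
    unfold normCover
    rw [if_neg hS0]
    have h3 : (p / 4) ^ S.card ≤ (1 / 4) * p ^ S.card := by
      rw [div_pow]
      have h4 : (4 : ℝ) ≤ 4 ^ S.card := by
        calc (4 : ℝ) = 4 ^ 1 := by norm_num
          _ ≤ 4 ^ S.card := pow_le_pow_right₀ (by norm_num) hcard
      rw [one_div, inv_mul_eq_div]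
      exact div_le_div_of_nonneg_left (pow_nonneg hp _) (by norm_num) h4
    have h5 : 0 ≤ g S / (1 - g ∅) := div_nonneg (hg S) hpos.le
    calc g S / (1 - g ∅) * (p / 4) ^ S.card ≤ g S / (1 - g ∅) * ((1 / 4) * p ^ S.card) :=
          mul_le_mul_of_nonneg_left h3 h5
      _ = 1 / 4 * (g S * p ^ S.card) / (1 - g ∅) := by ring
  have h6 : g ∅ + ∑ S ∈ univ.erase (∅ : Finset α), g S * p ^ S.card ≤ 1 / 2 := by
    have := hsplit (fun S => g S * p ^ S.card)
    simp only [card_empty, pow_zero, mul_one] at this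
    unfold fracCost at hcost
    linarith
  refine h1.trans ?_
  rw [div_le_iff₀ hpos]
  nlinarith [hg ∅]

theorem pow_sq_bound (ℓ : ℕ) : ℓ ^ 2 + 2 ≤ 2 ^ (ℓ + 1) := by
  induction ℓ with
  | zero => norm_num
  | succ n ih =>
    have h1 : n + 1 ≤ 2 ^ n := Nat.lt_two_pow_self
    rw [pow_succ 2 (n + 1), pow_succ 2 n] at *
    nlinarith

/-- The number of levels suffices for the initial family. -/
theorem iter_final_ell (ℓ : ℕ) : costStep^[logStar ℓ + 2] (2 ^ (ℓ ^ 2)) ≤ 5 := by
  rw [Function.iterate_succ_apply, Function.iterate_succ_apply]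
  have h1 : costStep (2 ^ (ℓ ^ 2)) = ℓ ^ 2 + 2 := by
    unfold costStep
    rw [Nat.clog_pow 2 (ℓ ^ 2) (by norm_num)]
  have h2 : costStep (ℓ ^ 2 + 2) ≤ ℓ + 3 := by
    unfold costStep
    have := Nat.clog_le_of_le_pow (pow_sq_bound ℓ)
    omega
  rw [h1]
  refine le_trans ?_ (iter_bound _ ℓ (logStar_spec ℓ))
  exact (costStep_mono.iterate _) h2

/-- The bound at a given `p`, in terms of a bound `ℓ` on the size of minimal members. -/
theorem isSmall_of_ell {F : Finset (Finset α)} {ℓ : ℕ} (hℓ : ∀ H ∈ F, ∃ T ∈ F, T ⊆ H ∧ T.card ≤ ℓ)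
    {g : Finset α → ℝ} {p : ℝ} (hp0 : 0 ≤ p) (hp1 : p ≤ 1) (hg : IsFracCover F g)
    (hcost : fracCost g p ≤ 1 / 2) :
    IsSmall F (p / (40 * ((logStar ℓ : ℝ) + 3))) := by
  rcases hp0.eq_or_lt with hp | hp
  · subst hp
    have h := isSmall_of_fracCover le_rfl hp1 hg hcost
    simpa only [zero_div] using h
  set k := logStar ℓ with hk
  have hk0 : (0 : ℝ) ≤ k := Nat.cast_nonneg k
  set d : ℝ := p / (4 * ((k : ℝ) + 3)) with hd
  have hd0 : 0 < d := by positivity
  have h00 := empty_weight_le hg.1 hp0 hcost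
  have hg' := normCover_nonneg hg.1 h00
  have hgc := normCover_cost hg.1 hp0 hcost
  set β : ℝ := 1 / 2 ^ (ℓ + 1) with hβ
  have hβ0 : 0 < β := by positivity
  have hβ1 : β ≤ 1 / 2 := by
    rw [hβ]
    apply div_le_div_of_nonneg_left (by norm_num) (by norm_num)
    calc (2 : ℝ) = 2 ^ 1 := by norm_num
      _ ≤ 2 ^ (ℓ + 1) := pow_le_pow_right₀ (by norm_num) (by omega)
  set A₀ := reach (normCover g) d β ℓ ∅ with hA₀
  have hJ : ((((k + 1 : ℕ) : ℝ)) + 1) * d + d = p / 4 := by
    rw [hd]
    push_cast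
    field_simp
    ring
  have hM : MassBound A₀ ((((k + 1 : ℕ) : ℝ) + 1) * d) := by
    apply massBound_of_rich hg' hd0.le (by positivity)
    · intro W hW
      exact reach_rich _ _ _ hW
    · rw [hJ]
      exact hgc
  have hA₀cost : famCost A₀ d ≤ ((2 ^ (ℓ ^ 2) : ℕ) : ℝ) := by
    have h1 := reach_cost (z := d) hg' hd0.le hβ0 hβ1 ℓ ∅
    simp only [sdiff_empty] at h1
    have h2 : (1 / (2 * β)) ^ ℓ = ((2 ^ (ℓ ^ 2) : ℕ) : ℝ) := by
      have h3 : 1 / (2 * β) = 2 ^ ℓ := by
        rw [hβ, pow_succ]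
        field_simp
      rw [h3]
      push_cast
      rw [← pow_mul, sq]
    unfold famCost
    rw [← h2]
    exact h1
  obtain ⟨U, h1, h2, h3⟩ := exists_iter hd0 (k + 1) A₀ (2 ^ (ℓ ^ 2)) hM hA₀cost
  have h5 : ((costStep^[k + 1 + 1] (2 ^ (ℓ ^ 2)) : ℕ) : ℝ) ≤ 5 := by
    exact_mod_cast iter_final_ell ℓ
  have h6 : famCost U d ≤ 5 := h3.trans h5
  refine ⟨U, ?_, ?_⟩
  · intro H hH
    obtain ⟨T, hT, hTH, hTc⟩ := hℓ H hH
    have h7 := normCover_sum h00 (hg.2 T hT)
    obtain ⟨W, hW, hWT⟩ := reach_cover (z := d) hg' hd0.le h7 hTc ℓ ∅ (empty_subset _)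
      (by simpa using hTc)
    obtain ⟨S, hS, hSW⟩ := h1 W hW
    exact ⟨S, hS, hSW.trans (hWT.trans hTH)⟩
  have hscale : p / (40 * ((k : ℝ) + 3)) = d / 10 := by
    rw [hd]
    field_simp
    ring
  rw [hscale]
  calc ∑ S ∈ U, (d / 10) ^ S.card ≤ ∑ S ∈ U, (d ^ S.card / 10) := by
        apply sum_le_sum
        intro S hS
        have hS0 : S ≠ ∅ := fun h => h2 (h ▸ hS)
        have hcard : 1 ≤ S.card := card_pos.2 (nonempty_iff_ne_empty.2 hS0)
        rw [div_pow]
        apply div_le_div_of_nonneg_left (pow_nonneg hd0.le _) (by norm_num)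
        calc (10 : ℝ) = 10 ^ 1 := by norm_num
          _ ≤ 10 ^ S.card := pow_le_pow_right₀ (by norm_num) hcard
    _ = famCost U d / 10 := by
        rw [famCost, sum_div]
    _ ≤ 1 / 2 := by linarith

/-- The threshold form. -/
theorem fracThreshold_le_ell {F : Finset (Finset α)} {ℓ : ℕ}
    (hℓ : ∀ H ∈ F, ∃ T ∈ F, T ⊆ H ∧ T.card ≤ ℓ) :
    fracThreshold F ≤ 40 * ((logStar ℓ : ℝ) + 3) * intThreshold F := by
  have hk0 : (0 : ℝ) ≤ (logStar ℓ : ℝ) := Nat.cast_nonneg _
  have hT : (0 : ℝ) < 40 * ((logStar ℓ : ℝ) + 3) := by positivity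
  have hq : 0 ≤ intThreshold F := by
    apply Real.sSup_nonneg
    intro x hx
    exact hx.1
  apply Real.sSup_le _ (by positivity)
  rintro p ⟨hp0, hp1, g, hg, hcost⟩
  have h1 := isSmall_of_ell hℓ hp0 hp1 hg hcost
  have h2 : p / (40 * ((logStar ℓ : ℝ) + 3)) ≤ intThreshold F := by
    apply le_csSup
    · refine ⟨1, ?_⟩
      intro x hx
      exact hx.2.1
    · refine ⟨by positivity, ?_, h1⟩
      rw [div_le_one hT]
      linarith
  rwa [div_le_iff₀' hT] at h2

end Vale.Agent.Lib.P034
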