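import Vale.Agent.Lib.P034.Ell

/-!
Fractional covers supported on large sets: an absolute constant when the sets of the cover have
size at least the binary logarithm of the size of the minimal members of the family.
The mass of packings is then exponentially small, so the class bound of `Step` gains a factor.
-/

namespace Vale.Agent.Lib.P034

open Finset

variable {α : Type*} [DecidableEq α]

/-- Every packing at scale `r` on `A` has mass at most `ε`. -/
def MassBoundE (A : Finset (Finset α)) (r ε : ℝ) : Prop :=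
  ∀ a, IsPacking A a r → ∑ B ∈ A, a B ≤ ε

section stepE

variable {d : ℝ} (hd : 0 < d) {A : Finset (Finset α)} {c : Finset α → Finset α}
  {Ψ : Finset α → ℝ}
  (hc : ∀ B ∈ A, c B ⊆ B) (hΨ : ∀ B ∈ A, 1 ≤ Ψ (c B))
  (hP1 : ∀ t, 0 ≤ t → ∀ V : Finset α,
    ∑ B ∈ A.filter (fun B => Ψ (c B) ≤ t ∧ V ⊆ B), d ^ B.card ≤ t * d ^ V.card)
  (hP2 : ∀ B ∈ A, ∑ B' ∈ A.filter (fun B' => c B' = c B), d ^ B'.card = Ψ (c B) * d ^ (c B).card)

include hd hP1 in
theorem weight_le_E {r ε : ℝ} (hr : 0 ≤ r) (hM : MassBoundE A (r + d) ε) {T : ℝ} (hT : 0 < T) :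
    ∑ B ∈ A.filter (fun B => Ψ (c B) ≤ T), d ^ B.card ≤ T * ε := by
  have hdpow : ∀ k : ℕ, 0 < d ^ k := fun k => pow_pos hd k
  have hpack : IsPacking A (fun B => if Ψ (c B) ≤ T then d ^ B.card / T else 0) (r + d) := by
    refine ⟨?_, ?_⟩
    · intro B _
      dsimp only
      split_ifs
      · exact div_nonneg (hdpow _).le hT.le
      · exact le_rfl
    · intro V
      have h1 : ∑ B ∈ A.filter (fun B => V ⊆ B), (if Ψ (c B) ≤ T then d ^ B.card / T else 0)
          = (∑ B ∈ A.filter (fun B => Ψ (c B) ≤ T ∧ V ⊆ B), d ^ B.card) / T := by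
        rw [sum_div, ← sum_filter, filter_filter]
        apply sum_congr _ (fun _ _ => rfl)
        ext B
        simp only [mem_filter]
        tauto
      rw [h1, div_le_iff₀ hT]
      refine (hP1 T hT.le V).trans ?_
      rw [mul_comm]
      apply mul_le_mul_of_nonneg_right _ hT.le
      apply pow_le_pow_left₀ hd.le
      linarith
  have := hM _ hpack
  have h2 : ∑ B ∈ A, (if Ψ (c B) ≤ T then d ^ B.card / T else 0)
      = (∑ B ∈ A.filter (fun B => Ψ (c B) ≤ T), d ^ B.card) / T := by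
    rw [sum_div, ← sum_filter]
  rw [h2, div_le_iff₀ hT] at this
  linarith

include hd hP1 hP2 hΨ in
theorem class_bound_E {r ε : ℝ} (hr : 0 ≤ r) (hM : MassBoundE A (r + d) ε) {T : ℝ} (hT : 0 < T) :
    ∑ U ∈ (A.image c).filter (fun U => T / 2 < Ψ U ∧ Ψ U ≤ T), d ^ U.card ≤ 2 * ε := by
  have hdpow : ∀ k : ℕ, 0 < d ^ k := fun k => pow_pos hd k
  have hΨpos : ∀ U ∈ A.image c, 0 < Ψ U := by
    intro U hU
    obtain ⟨B, hB, rfl⟩ := mem_image.1 hU
    linarith [hΨ B hB]
  have h1 := weight_le_E hd hP1 hr hM hT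
  have h2 := sum_core (A := A) (c := c) (Ψ := Ψ) (d := d) hP2 (fun U => if Ψ U ≤ T then 1 else 0)
  have h3 : ∑ B ∈ A, (if Ψ (c B) ≤ T then (1 : ℝ) else 0) * d ^ B.card
      = ∑ B ∈ A.filter (fun B => Ψ (c B) ≤ T), d ^ B.card := by
    rw [sum_filter]
    apply sum_congr rfl
    intro B _
    split_ifs <;> simp
  have h4 : ∑ U ∈ (A.image c).filter (fun U => T / 2 < Ψ U ∧ Ψ U ≤ T), d ^ U.card
      ≤ ∑ U ∈ A.image c, (2 / T) * ((if Ψ U ≤ T then (1 : ℝ) else 0) * (Ψ U * d ^ U.card)) := by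
    calc ∑ U ∈ (A.image c).filter (fun U => T / 2 < Ψ U ∧ Ψ U ≤ T), d ^ U.card
        ≤ ∑ U ∈ (A.image c).filter (fun U => T / 2 < Ψ U ∧ Ψ U ≤ T),
            (2 / T) * ((if Ψ U ≤ T then (1 : ℝ) else 0) * (Ψ U * d ^ U.card)) := by
          apply sum_le_sum
          intro U hU
          rw [mem_filter] at hU
          obtain ⟨_, h5, h6⟩ := hU
          rw [if_pos h6, one_mul]
          have h7 := hdpow U.card
          have h8 : 1 ≤ 2 / T * Ψ U := by
            rw [div_mul_eq_mul_div, le_div_iff₀ hT]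
            linarith
          calc d ^ U.card = 1 * d ^ U.card := (one_mul _).symm
            _ ≤ (2 / T * Ψ U) * d ^ U.card := mul_le_mul_of_nonneg_right h8 h7.le
            _ = 2 / T * (Ψ U * d ^ U.card) := by ring
      _ ≤ _ := by
          apply sum_le_sum_of_subset_of_nonneg (filter_subset _ _)
          intro U hU _
          have := hΨpos U hU
          have h7 := hdpow U.card
          split_ifs <;> positivity
  rw [← mul_sum, h2, h3] at h4
  calc _ ≤ 2 / T * ∑ B ∈ A.filter (fun B => Ψ (c B) ≤ T), d ^ B.card := h4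
    _ ≤ 2 / T * (T * ε) := by
        apply mul_le_mul_of_nonneg_left h1 (by positivity)
    _ = 2 * ε := by
        field_simp

include hd hΨ hP1 hP2 in
theorem cost_image_le_E {r ε : ℝ} (hr : 0 ≤ r) (hM : MassBoundE A (r + d) ε) (κ : ℕ) :
    famCost (A.image c) d ≤ ((κ : ℝ) + 1) * (2 * ε) + famCost A d / 2 ^ κ := by
  have hdpow : ∀ k : ℕ, 0 < d ^ k := fun k => pow_pos hd k
  have hpt : ∀ U ∈ A.image c, d ^ U.card ≤
      ∑ k ∈ range (κ + 1),
        (if (2 : ℝ) ^ k / 2 < Ψ U ∧ Ψ U ≤ 2 ^ k then d ^ U.card else 0)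
      + (if (2 : ℝ) ^ κ < Ψ U then d ^ U.card else 0) := by
    intro U hU
    obtain ⟨B, hB, rfl⟩ := mem_image.1 hU
    have hnn : ∀ k ∈ range (κ + 1), (0 : ℝ) ≤
        (if (2 : ℝ) ^ k / 2 < Ψ (c B) ∧ Ψ (c B) ≤ 2 ^ k then d ^ (c B).card else 0) := by
      intro k _
      split_ifs
      · exact (hdpow _).le
      · exact le_rfl
    by_cases htop : (2 : ℝ) ^ κ < Ψ (c B)
    · rw [if_pos htop]
      have := sum_nonneg hnn
      linarith
    · rw [if_neg htop, add_zero]
      rw [not_lt] at htop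
      obtain ⟨k, hk, hk2⟩ := exists_dyadic (hΨ B hB) κ htop
      have := Finset.single_le_sum hnn hk
      rw [if_pos hk2] at this
      exact this
  rw [famCost]
  refine (sum_le_sum hpt).trans ?_
  rw [sum_add_distrib, sum_comm]
  have h1 : ∀ k ∈ range (κ + 1), ∑ U ∈ A.image c,
      (if (2 : ℝ) ^ k / 2 < Ψ U ∧ Ψ U ≤ 2 ^ k then d ^ U.card else 0) ≤ 2 * ε := by
    intro k _
    rw [← sum_filter]
    exact class_bound_E hd hΨ hP1 hP2 hr hM (pow_pos (by norm_num) k)
  have h2 : ∑ U ∈ A.image c, (if (2 : ℝ) ^ κ < Ψ U then d ^ U.card else 0) ≤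
      famCost A d / 2 ^ κ := by
    rw [← sum_filter]
    exact top_bound hd hΨ hP2 (pow_pos (by norm_num) κ)
  have h3 := sum_le_sum h1
  rw [sum_const, card_range, nsmul_eq_mul] at h3
  push_cast at h3
  linarith

end stepE

/-- One full step with the mass bound `ε`. -/
theorem exists_stepE [Fintype α] {d r ε : ℝ} (hd : 0 < d) (hr : 0 ≤ r) {A : Finset (Finset α)}
    (κ : ℕ) (hM : MassBoundE A (r + d) ε) :
    ∃ U : Finset (Finset α), (∀ B ∈ A, ∃ S ∈ U, S ⊆ B) ∧ MassBoundE U r ε ∧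
      famCost U d ≤ ((κ : ℝ) + 1) * (2 * ε) + famCost A d / 2 ^ κ := by
  obtain ⟨c, Ψ, hc, hΨ, hP1, hP2⟩ := exists_decomp hd A
  refine ⟨A.image c, ?_, ?_, cost_image_le_E hd hΨ hP1 hP2 hr hM κ⟩
  · intro B hB
    exact ⟨c B, mem_image_of_mem c hB, hc B hB⟩
  · intro a' ha'
    obtain ⟨h1, h2⟩ := lift_packing hd hc hΨ hP1 hP2 ha'
    rw [← h2]
    exact hM _ h1

/-- Iterated steps with the mass bound `ε`. -/
theorem exists_iterE [Fintype α] {d ε : ℝ} (hd : 0 < d) (hε : ε ≤ 1 / 4) (κ : ℕ) (J : ℕ) :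
    ∀ (A : Finset (Finset α)) (N : ℕ), MassBoundE A (((J : ℝ) + 1) * d) ε → famCost A d ≤ N →
      ∃ U : Finset (Finset α), (∀ B ∈ A, ∃ S ∈ U, S ⊆ B) ∧
        famCost U d ≤ ((κ : ℝ) + 1) * (2 * ε) + ((costStep^[J] N : ℕ) : ℝ) / 2 ^ κ := by
  induction J with
  | zero =>
    intro A N hM hcost
    have hM' : MassBoundE A (0 + d) ε := by
      simpa using hM
    obtain ⟨U, h1, -, h3⟩ := exists_stepE hd le_rfl κ hM'
    refine ⟨U, h1, h3.trans ?_⟩
    simp only [Function.iterate_zero, id_eq]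
    have h2pos : (0 : ℝ) < 2 ^ κ := by positivity
    have := div_le_div_of_nonneg_right hcost h2pos.le
    linarith
  | succ J ih =>
    intro A N hM hcost
    have hle : (N : ℝ) ≤ 2 ^ (Nat.clog 2 N) := by
      exact_mod_cast Nat.le_pow_clog (by norm_num) N
    have hJ : (0 : ℝ) ≤ ((J : ℝ) + 1) * d := by positivity
    have hM' : MassBoundE A (((J : ℝ) + 1) * d + d) ε := by
      have : ((((J + 1 : ℕ) : ℝ)) + 1) * d = ((J : ℝ) + 1) * d + d := by
        push_cast
        ring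
      rwa [this] at hM
    obtain ⟨U, h1, h3, h4⟩ := exists_stepE hd hJ (Nat.clog 2 N) hM'
    have h4' : famCost U d ≤ (costStep N : ℕ) := by
      refine h4.trans ?_
      unfold costStep
      push_cast
      have hk : (0 : ℝ) ≤ (Nat.clog 2 N : ℝ) := Nat.cast_nonneg _
      have h5 : ((Nat.clog 2 N : ℝ) + 1) * (2 * ε) ≤ ((Nat.clog 2 N : ℝ) + 1) * (1 / 2) :=
        mul_le_mul_of_nonneg_left (by linarith) (by positivity)
      have h6 : famCost A d / 2 ^ (Nat.clog 2 N) ≤ 1 := by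
        rw [div_le_one (by positivity)]
        exact hcost.trans hle
      linarith
    obtain ⟨W, h5, h6⟩ := ih U (costStep N) h3 h4'
    refine ⟨W, ?_, ?_⟩
    · intro B hB
      obtain ⟨S, hS, hSB⟩ := h1 B hB
      obtain ⟨S', hS', hS'S⟩ := h5 S hS
      exact ⟨S', hS', hS'S.trans hSB⟩
    · rw [Function.iterate_succ_apply]
      exact h6

/-- Mass of packings on a family of rich sets. -/
theorem mass_le_of_rich [Fintype α] {g : Finset α → ℝ} {z r : ℝ} (hg : ∀ S, 0 ≤ g S) (hz : 0 ≤ z)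
    (hr : 0 ≤ r) {A : Finset (Finset α)} (hA : ∀ W ∈ A, 1 / 2 ≤ richVal g z W) :
    MassBoundE A r (2 * fracCost g (r + z)) := by
  intro a ha
  have hinner : ∀ S : Finset α, ∑ W ∈ A, a W * z ^ (S \ W).card ≤ (r + z) ^ S.card := by
    intro S
    have h1 : ∀ W ∈ A, a W * z ^ (S \ W).card =
        ∑ Y ∈ S.powerset, (if S ∩ W = Y then a W * z ^ (S.card - Y.card) else 0) := by
      intro W _
      rw [sum_ite_eq]
      have hmem : S ∩ W ∈ S.powerset := mem_powerset.2 inter_subset_left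
      rw [if_pos hmem]
      have hc : (S \ W).card = S.card - (S ∩ W).card := by
        have := card_sdiff_add_card_inter S W
        omega
      rw [hc]
    calc ∑ W ∈ A, a W * z ^ (S \ W).card
        = ∑ W ∈ A, ∑ Y ∈ S.powerset, (if S ∩ W = Y then a W * z ^ (S.card - Y.card) else 0) :=
          sum_congr rfl h1
      _ = ∑ Y ∈ S.powerset, ∑ W ∈ A, (if S ∩ W = Y then a W * z ^ (S.card - Y.card) else 0) :=
          sum_comm
      _ ≤ ∑ Y ∈ S.powerset, r ^ Y.card * z ^ (S.card - Y.card) := by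
          apply sum_le_sum
          intro Y hY
          have hzp : 0 ≤ z ^ (S.card - Y.card) := pow_nonneg hz _
          calc ∑ W ∈ A, (if S ∩ W = Y then a W * z ^ (S.card - Y.card) else 0)
              ≤ ∑ W ∈ A, (if Y ⊆ W then a W * z ^ (S.card - Y.card) else 0) := by
                apply sum_le_sum
                intro W hW
                by_cases h2 : S ∩ W = Y
                · have h3 : Y ⊆ W := by
                    rw [← h2]
                    exact inter_subset_right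
                  rw [if_pos h2, if_pos h3]
                · rw [if_neg h2]
                  split_ifs
                  · exact mul_nonneg (ha.1 W hW) hzp
                  · exact le_rfl
            _ = (∑ W ∈ A.filter (fun W => Y ⊆ W), a W) * z ^ (S.card - Y.card) := by
                rw [sum_mul, sum_filter]
            _ ≤ r ^ Y.card * z ^ (S.card - Y.card) :=
                mul_le_mul_of_nonneg_right (ha.2 Y) hzp
      _ = (r + z) ^ S.card := sum_pow_mul_eq_add_pow r z S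
  have hnn : ∀ W ∈ A, 0 ≤ a W := ha.1
  have h2 : ∑ W ∈ A, a W * (1 / 2) ≤ ∑ W ∈ A, a W * richVal g z W := by
    apply sum_le_sum
    intro W hW
    exact mul_le_mul_of_nonneg_left (hA W hW) (hnn W hW)
  have h3 : ∑ W ∈ A, a W * richVal g z W =
      ∑ S : Finset α, g S * ∑ W ∈ A, a W * z ^ (S \ W).card := by
    unfold richVal
    simp_rw [mul_sum]
    rw [sum_comm]
    apply sum_congr rfl
    intro S _
    apply sum_congr rfl
    intro W _
    ring
  have h4 : ∑ S : Finset α, g S * ∑ W ∈ A, a W * z ^ (S \ W).card ≤ fracCost g (r + z) := by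
    unfold fracCost
    apply sum_le_sum
    intro S _
    exact mul_le_mul_of_nonneg_left (hinner S) (hg S)
  rw [← sum_mul] at h2
  linarith

/-- Halving the scale gains `2^t` when all sets of the support have size at least `t`. -/
theorem fracCost_half [Fintype α] {g : Finset α → ℝ} {p : ℝ} {t : ℕ} (hg : ∀ S, 0 ≤ g S)
    (hp : 0 ≤ p) (hsupp : ∀ S, g S ≠ 0 → t ≤ S.card) :
    fracCost g (p / 2) ≤ (1 / 2 ^ t) * fracCost g p := by
  unfold fracCost
  rw [mul_sum]
  apply sum_le_sum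
  intro S _
  by_cases h0 : g S = 0
  · simp [h0]
  · have hS := hsupp S h0
    have h1 : (p / 2) ^ S.card ≤ (1 / 2 ^ t) * p ^ S.card := by
      rw [div_pow, one_div, inv_mul_eq_div]
      apply div_le_div_of_nonneg_left (pow_nonneg hp _) (by positivity)
      exact pow_le_pow_right₀ (by norm_num) hS
    calc g S * (p / 2) ^ S.card ≤ g S * ((1 / 2 ^ t) * p ^ S.card) :=
          mul_le_mul_of_nonneg_left h1 (hg S)
      _ = 1 / 2 ^ t * (g S * p ^ S.card) := by ring

/-- The main bound, with a numerical hypothesis on the iteration. -/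
theorem isSmall_of_large [Fintype α] {F : Finset (Finset α)} {ℓ t J : ℕ}
    (hℓ : ∀ H ∈ F, ∃ T ∈ F, T ⊆ H ∧ T.card ≤ ℓ)
    (hnum : 4 * Nat.clog 2 (costStep^[J] (2 ^ (ℓ ^ 2))) + 4 * t + 6 ≤ 2 ^ t)
    {g : Finset α → ℝ} {p : ℝ} (hp0 : 0 ≤ p) (hg : IsFracCover F g)
    (hsupp : ∀ S, g S ≠ 0 → t ≤ S.card) (hcost : fracCost g p ≤ 1 / 2) :
    IsSmall F (p / (2 * ((J : ℝ) + 2))) := by
  rcases hp0.eq_or_lt with hp | hp
  · subst hp
    have h := isSmall_of_fracCover le_rfl zero_le_one hg hcost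
    simpa only [zero_div] using h
  have hJ0 : (0 : ℝ) ≤ J := Nat.cast_nonneg J
  set d : ℝ := p / (2 * ((J : ℝ) + 2)) with hd
  have hd0 : 0 < d := by positivity
  set β : ℝ := 1 / 2 ^ (ℓ + 1) with hβ
  have hβ0 : 0 < β := by positivity
  have hβ1 : β ≤ 1 / 2 := by
    rw [hβ]
    apply div_le_div_of_nonneg_left (by norm_num) (by norm_num)
    calc (2 : ℝ) = 2 ^ 1 := by norm_num
      _ ≤ 2 ^ (ℓ + 1) := pow_le_pow_right₀ (by norm_num) (by omega)
  set A₀ := reach g d β ℓ ∅ with hA₀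
  set ε : ℝ := 1 / 2 ^ t with hε
  have h2t : (0 : ℝ) < 2 ^ t := by positivity
  have hε0 : 0 < ε := by positivity
  have h4 : (4 : ℝ) ≤ 2 ^ t := by
    have : 4 ≤ 2 ^ t := by omega
    exact_mod_cast this
  have hε4 : ε ≤ 1 / 4 := by
    rw [hε]
    exact div_le_div_of_nonneg_left (by norm_num) (by norm_num) h4
  have hscale : ((J : ℝ) + 1) * d + d = p / 2 := by
    rw [hd]
    field_simp
    ring
  have hM : MassBoundE A₀ (((J : ℝ) + 1) * d) ε := by
    have h1 := mass_le_of_rich (A := A₀) (r := ((J : ℝ) + 1) * d) hg.1 hd0.le (by positivity)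
      (fun W hW => reach_rich _ _ _ hW)
    rw [hscale] at h1
    intro a ha
    refine (h1 a ha).trans ?_
    have h2 := fracCost_half (p := p) hg.1 hp0 hsupp
    have h3 : (1 / 2 ^ t) * fracCost g p ≤ (1 / 2 ^ t) * (1 / 2) :=
      mul_le_mul_of_nonneg_left hcost (by positivity)
    rw [hε]
    have h5 : 2 * ((1 / 2 ^ t) * (1 / 2 : ℝ)) = 1 / 2 ^ t := by ring
    linarith
  have hA₀cost : famCost A₀ d ≤ ((2 ^ (ℓ ^ 2) : ℕ) : ℝ) := by
    have h1 := reach_cost (z := d) hg.1 hd0.le hβ0 hβ1 ℓ ∅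
    simp only [sdiff_empty] at h1
    have h2 : (1 / (2 * β)) ^ ℓ = ((2 ^ (ℓ ^ 2) : ℕ) : ℝ) := by
      have h3 : 1 / (2 * β) = 2 ^ ℓ := by
        rw [hβ, pow_succ]
        field_simp
      rw [h3]
      push_cast
      rw [← pow_mul, sq]
    unfold famCost
    rw [← h2]
    exact h1
  set NJ := costStep^[J] (2 ^ (ℓ ^ 2)) with hNJ
  set κ := Nat.clog 2 NJ + t with hκ
  obtain ⟨U, h1, h3⟩ := exists_iterE hd0 hε4 κ J A₀ (2 ^ (ℓ ^ 2)) hM hA₀cost
  refine ⟨U, ?_, ?_⟩
  · intro H hH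
    obtain ⟨T, hT, hTH, hTc⟩ := hℓ H hH
    obtain ⟨W, hW, hWT⟩ := reach_cover (z := d) hg.1 hd0.le (hg.2 T hT) hTc ℓ ∅ (empty_subset _)
      (by simpa using hTc)
    obtain ⟨S, hS, hSW⟩ := h1 W hW
    exact ⟨S, hS, hSW.trans (hWT.trans hTH)⟩
  · change famCost U d ≤ 1 / 2
    refine h3.trans ?_
    have hN : ((NJ : ℕ) : ℝ) ≤ 2 ^ (Nat.clog 2 NJ) := by
      exact_mod_cast Nat.le_pow_clog (by norm_num) NJ
    have h7 : ((NJ : ℕ) : ℝ) / 2 ^ κ ≤ ε := by
      rw [hκ, pow_add, hε, div_le_iff₀ (by positivity)]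
      have : (1 : ℝ) / 2 ^ t * (2 ^ Nat.clog 2 NJ * 2 ^ t) = 2 ^ Nat.clog 2 NJ := by
        field_simp
      rw [this]
      exact hN
    have h8 : (((κ : ℝ) + 1) * (2 * ε) + ε) = ε * (2 * (κ : ℝ) + 3) := by ring
    have h9 : ε * (2 * (κ : ℝ) + 3) ≤ 1 / 2 := by
      rw [hε, div_mul_eq_mul_div, one_mul, div_le_iff₀ h2t]
      have h10 : 4 * Nat.clog 2 NJ + 4 * t + 6 ≤ 2 ^ t := hnum
      have h11 : ((4 * Nat.clog 2 NJ + 4 * t + 6 : ℕ) : ℝ) ≤ ((2 ^ t : ℕ) : ℝ) := by
        exact_mod_cast h10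
      push_cast at h11
      rw [hκ]
      push_cast
      linarith
    linarith

/-- The iteration is controlled by the iterated logarithm. -/
theorem costStep_iter_le (u : ℕ) (hu : 2 ≤ u) (k : ℕ) :
    ∀ m : ℕ, (Nat.clog 2)^[k] m ≤ u → costStep^[k] (m + 3) ≤ u + 3 := by
  induction k with
  | zero =>
    intro m hm
    simp only [Function.iterate_zero, id_eq] at hm ⊢
    omega
  | succ k ih =>
    intro m hm
    rw [Function.iterate_succ_apply] at hm ⊢
    by_cases h : 3 ≤ m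
    · have h1 := ih _ hm
      refine le_trans ?_ h1
      apply (costStep_mono.iterate k)
      unfold costStep
      have h2 : m ≤ 2 ^ Nat.clog 2 m := Nat.le_pow_clog (by norm_num) m
      have h3 : 1 < Nat.clog 2 m := (Nat.lt_clog_iff_pow_lt (by norm_num)).2 (by omega)
      have h4 : 4 ≤ 2 ^ Nat.clog 2 m := by
        calc 4 = 2 ^ 2 := by norm_num
          _ ≤ 2 ^ Nat.clog 2 m := Nat.pow_le_pow_right (by norm_num) h3
      have h5 : m + 3 ≤ 2 ^ (Nat.clog 2 m + 1) := by
        rw [pow_succ]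
        omega
      have h6 : Nat.clog 2 (m + 3) ≤ Nat.clog 2 m + 1 :=
        Nat.clog_le_of_le_pow h5
      omega
    · have h0 : ∀ j : ℕ, (Nat.clog 2)^[j] 2 ≤ 2 := by
        intro j
        induction j with
        | zero => simp
        | succ j ihj =>
          rw [Function.iterate_succ_apply']
          exact (Nat.clog_mono_right 2 ihj).trans (by norm_num [Nat.clog])
      have h1 := ih 2 ((h0 k).trans hu)
      refine le_trans ?_ h1
      apply (costStep_mono.iterate k)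
      have h2 : costStep (m + 3) ≤ costStep 5 := costStep_mono (by omega)
      have h3 : costStep 5 ≤ 2 + 3 := by
        unfold costStep
        have : Nat.clog 2 5 ≤ 3 := Nat.clog_le_of_le_pow (by norm_num)
        omega
      omega

theorem two_pow_ge (t : ℕ) (ht : 6 ≤ t) : 8 * t + 10 ≤ 2 ^ t := by
  induction t, ht using Nat.le_induction with
  | base => norm_num
  | succ n hn ih =>
    rw [pow_succ]
    omega

/-- The numerical hypothesis holds with `J = k + 2` as soon as the `k`-fold iterated logarithm of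
`ℓ` is at most `2^t`, `t ≥ 6`. -/
theorem hnum_of_iter {ℓ t k : ℕ} (ht : 6 ≤ t) (hk : (Nat.clog 2)^[k] ℓ ≤ 2 ^ t) :
    4 * Nat.clog 2 (costStep^[k + 2] (2 ^ (ℓ ^ 2))) + 4 * t + 6 ≤ 2 ^ t := by
  have h2t : 64 ≤ 2 ^ t := by
    calc 64 = 2 ^ 6 := by norm_num
      _ ≤ 2 ^ t := Nat.pow_le_pow_right (by norm_num) ht
  have h1 : costStep^[k + 2] (2 ^ (ℓ ^ 2)) ≤ 2 ^ t + 3 := by
    rw [Function.iterate_succ_apply, Function.iterate_succ_apply]
    have h2 : costStep (2 ^ (ℓ ^ 2)) = ℓ ^ 2 + 2 := by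
      unfold costStep
      rw [Nat.clog_pow 2 (ℓ ^ 2) (by norm_num)]
    have h3 : costStep (ℓ ^ 2 + 2) ≤ ℓ + 3 := by
      unfold costStep
      have := Nat.clog_le_of_le_pow (pow_sq_bound ℓ)
      omega
    rw [h2]
    refine le_trans ?_ (costStep_iter_le (2 ^ t) (by omega) k ℓ hk)
    exact (costStep_mono.iterate _) h3
  have h2 : Nat.clog 2 (costStep^[k + 2] (2 ^ (ℓ ^ 2))) ≤ t + 1 := by
    apply Nat.clog_le_of_le_pow
    have h3 : 2 ^ (t + 1) = 2 ^ t * 2 := pow_succ 2 t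
    omega
  have h3 := two_pow_ge t ht
  omega

/-- The form with the iterated logarithm. -/
theorem isSmall_of_large_iter [Fintype α] {F : Finset (Finset α)} {ℓ t k : ℕ}
    (hℓ : ∀ H ∈ F, ∃ T ∈ F, T ⊆ H ∧ T.card ≤ ℓ) (ht : 6 ≤ t) (hk : (Nat.clog 2)^[k] ℓ ≤ 2 ^ t)
    {g : Finset α → ℝ} {p : ℝ} (hp0 : 0 ≤ p) (hg : IsFracCover F g)
    (hsupp : ∀ S, g S ≠ 0 → t ≤ S.card) (hcost : fracCost g p ≤ 1 / 2) :
    IsSmall F (p / (2 * ((k : ℝ) + 4))) := by
  have h := isSmall_of_large hℓ (hnum_of_iter ht hk) hp0 hg hsupp hcost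
  have h2 : (((k + 2 : ℕ) : ℝ) + 2) = (k : ℝ) + 4 := by
    push_cast
    ring
  rwa [h2] at h

/-- The reduction: for an arbitrary fractional cover, a cheap family handles every set with at
least half of its weight on the sets of size at least `t`. -/
theorem reduction [Fintype α] {F : Finset (Finset α)} {ℓ t k : ℕ}
    (hℓ : ∀ H ∈ F, ∃ T ∈ F, T ⊆ H ∧ T.card ≤ ℓ) (ht : 6 ≤ t) (hk : (Nat.clog 2)^[k] ℓ ≤ 2 ^ t)
    {g : Finset α → ℝ} {p : ℝ} (hp0 : 0 ≤ p) (hg : IsFracCover F g)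
    (hcost : fracCost g p ≤ 1 / 2) :
    ∃ G : Finset (Finset α), ∑ S ∈ G, (p / (4 * ((k : ℝ) + 4))) ^ S.card ≤ 1 / 2 ∧
      ∀ H ∈ F, (∃ S ∈ G, S ⊆ H) ∨
        1 / 2 ≤ ∑ S ∈ H.powerset.filter (fun S => S.card < t), g S := by
  classical
  -- the large part of the cover
  set g' : Finset α → ℝ := fun S => if t ≤ S.card then 2 * g S else 0 with hg'
  have hg'0 : ∀ S, 0 ≤ g' S := by
    intro S
    simp only [hg']
    split_ifs
    · exact mul_nonneg (by norm_num) (hg.1 S)
    · exact le_rfl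
  have hsupp : ∀ S, g' S ≠ 0 → t ≤ S.card := by
    intro S hS
    by_contra h
    simp only [hg', if_neg h] at hS
    exact hS rfl
  set F' : Finset (Finset α) :=
    F.filter (fun T => T.card ≤ ℓ ∧ 1 ≤ ∑ S ∈ T.powerset, g' S) with hF'
  have hcover' : IsFracCover F' g' := by
    refine ⟨hg'0, ?_⟩
    intro H hH
    exact (mem_filter.1 hH).2.2
  have hℓ' : ∀ H ∈ F', ∃ T ∈ F', T ⊆ H ∧ T.card ≤ ℓ := by
    intro H hH
    exact ⟨H, hH, subset_rfl, (mem_filter.1 hH).2.1⟩
  have hcost' : fracCost g' (p / 2) ≤ 1 / 2 := by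
    unfold fracCost
    have h1 : ∀ S ∈ (univ : Finset (Finset α)), g' S * (p / 2) ^ S.card ≤ g S * p ^ S.card := by
      intro S _
      simp only [hg']
      have hgS := hg.1 S
      have hpS : 0 ≤ p ^ S.card := pow_nonneg hp0 _
      split_ifs with h
      · have h2t : (64 : ℝ) ≤ 2 ^ S.card := by
          have h3 : 6 ≤ S.card := ht.trans h
          calc (64 : ℝ) = 2 ^ 6 := by norm_num
            _ ≤ 2 ^ S.card := pow_le_pow_right₀ (by norm_num) h3
        have h4 : (p / 2) ^ S.card ≤ p ^ S.card / 2 := by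
          rw [div_pow]
          apply div_le_div_of_nonneg_left hpS (by norm_num)
          linarith
        calc 2 * g S * (p / 2) ^ S.card ≤ 2 * g S * (p ^ S.card / 2) :=
              mul_le_mul_of_nonneg_left h4 (by positivity)
          _ = g S * p ^ S.card := by ring
      · simpa using mul_nonneg hgS hpS
    exact (sum_le_sum h1).trans hcost
  obtain ⟨G, hG1, hG2⟩ := isSmall_of_large_iter hℓ' ht hk (p := p / 2) (by positivity) hcover'
    hsupp hcost'
  have hscale : p / 2 / (2 * ((k : ℝ) + 4)) = p / (4 * ((k : ℝ) + 4)) := by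
    have hk0 : (0 : ℝ) ≤ k := Nat.cast_nonneg k
    field_simp
    ring
  rw [hscale] at hG2
  refine ⟨G, hG2, ?_⟩
  intro H hH
  obtain ⟨T, hT, hTH, hTc⟩ := hℓ H hH
  by_cases hbig : 1 ≤ ∑ S ∈ T.powerset, g' S
  · left
    have hT' : T ∈ F' := mem_filter.2 ⟨hT, hTc, hbig⟩
    obtain ⟨S, hS, hST⟩ := hG1 T hT'
    exact ⟨S, hS, hST.trans hTH⟩
  · right
    rw [not_le] at hbig
    have h1 := hg.2 T hT
    have h2 : ∑ S ∈ T.powerset, g S =
        ∑ S ∈ T.powerset.filter (fun S => S.card < t), g S +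
        ∑ S ∈ T.powerset.filter (fun S => ¬ S.card < t), g S :=
      (sum_filter_add_sum_filter_not _ _ _).symm
    have h3 : ∑ S ∈ T.powerset, g' S =
        2 * ∑ S ∈ T.powerset.filter (fun S => ¬ S.card < t), g S := by
      rw [mul_sum, sum_filter]
      apply sum_congr rfl
      intro S _
      simp only [hg', not_lt]
    have h4 : ∑ S ∈ T.powerset.filter (fun S => S.card < t), g S ≤
        ∑ S ∈ H.powerset.filter (fun S => S.card < t), g S := by
      apply sum_le_sum_of_subset_of_nonneg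
      · intro S hS
        rw [mem_filter, mem_powerset] at hS ⊢
        exact ⟨hS.1.trans hTH, hS.2⟩
      · intro S _ _
        exact hg.1 S
    linarith

end Vale.Agent.Lib.P034
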