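import Vale.Agent.Lib.P034.Step

/-!
The iteration and the main bound `q_f ≤ 20 (log* |X| + 1) q`.
-/

namespace Vale.Agent.Lib.P034

open Finset

variable {α : Type*} [DecidableEq α] [Fintype α]

/-- The recursion for the cost bound. -/
def costStep (N : ℕ) : ℕ := Nat.clog 2 N + 2

theorem costStep_mono : Monotone costStep := by
  intro a b h
  unfold costStep
  have := Nat.clog_mono_right 2 h
  omega

/-- Iterated steps. -/
theorem exists_iter {d : ℝ} (hd : 0 < d) (J : ℕ) :
    ∀ (A : Finset (Finset α)) (N : ℕ), MassBound A (((J : ℝ) + 1) * d) → famCost A d ≤ N →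
      ∃ U : Finset (Finset α), (∀ B ∈ A, ∃ S ∈ U, S ⊆ B) ∧ ∅ ∉ U ∧
        famCost U d ≤ (costStep^[J + 1] N : ℕ) := by
  induction J with
  | zero =>
    intro A N hM hcost
    have hle : (N : ℝ) ≤ 2 ^ (Nat.clog 2 N) := by
      exact_mod_cast Nat.le_pow_clog (by norm_num) N
    have hM' : MassBound A (0 + d) := by
      simpa using hM
    obtain ⟨U, h1, h2, -, h4⟩ := exists_step hd le_rfl hM' (hcost.trans hle)
    refine ⟨U, h1, h2, ?_⟩
    simp only [zero_add, Function.iterate_one]
    unfold costStep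
    push_cast
    exact h4
  | succ J ih =>
    intro A N hM hcost
    have hle : (N : ℝ) ≤ 2 ^ (Nat.clog 2 N) := by
      exact_mod_cast Nat.le_pow_clog (by norm_num) N
    have hJ : (0 : ℝ) ≤ ((J : ℝ) + 1) * d := by positivity
    have hM' : MassBound A (((J : ℝ) + 1) * d + d) := by
      have : ((((J + 1 : ℕ) : ℝ)) + 1) * d = ((J : ℝ) + 1) * d + d := by
        push_cast
        ring
      rwa [this] at hM
    obtain ⟨U, h1, -, h3, h4⟩ := exists_step hd hJ hM' (hcost.trans hle)
    have h4' : famCost U d ≤ (costStep N : ℕ) := by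
      unfold costStep
      push_cast
      exact h4
    obtain ⟨W, h5, h6, h7⟩ := ih U (costStep N) h3 h4'
    refine ⟨W, ?_, h6, ?_⟩
    · intro B hB
      obtain ⟨S, hS, hSB⟩ := h1 B hB
      obtain ⟨S', hS', hS'S⟩ := h5 S hS
      exact ⟨S', hS', hS'S.trans hSB⟩
    · rw [Function.iterate_succ_apply]
      exact h7

theorem clog_iter_exists (n : ℕ) : ∃ k, (Nat.clog 2)^[k] n ≤ 1 := by
  induction n using Nat.strong_induction_on with
  | _ n ih =>
    by_cases h : n ≤ 1
    · exact ⟨0, h⟩
    · have hlt : Nat.clog 2 n < n := by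
        have h1 : n - 1 < 2 ^ (n - 1) := Nat.lt_two_pow_self
        have h2 : n ≤ 2 ^ (n - 1) := by omega
        have h3 := Nat.clog_le_of_le_pow h2
        omega
      obtain ⟨k, hk⟩ := ih _ hlt
      exact ⟨k + 1, by rwa [Function.iterate_succ_apply]⟩

theorem logStar_spec (n : ℕ) : (Nat.clog 2)^[logStar n] n ≤ 1 :=
  Nat.sInf_mem (s := {k : ℕ | (Nat.clog 2)^[k] n ≤ 1}) (clog_iter_exists n)

theorem iter_le_five (k : ℕ) {x : ℕ} (hx : x ≤ 5) : costStep^[k] x ≤ 5 := by
  induction k generalizing x with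
  | zero => simpa using hx
  | succ k ih =>
    rw [Function.iterate_succ_apply]
    apply ih
    have h1 : Nat.clog 2 x ≤ Nat.clog 2 5 := Nat.clog_mono_right 2 hx
    have h2 : Nat.clog 2 5 ≤ 3 := Nat.clog_le_of_le_pow (by norm_num)
    unfold costStep
    omega

theorem iter_bound (k : ℕ) : ∀ m : ℕ, (Nat.clog 2)^[k] m ≤ 1 → costStep^[k] (m + 3) ≤ 5 := by
  induction k with
  | zero =>
    intro m hm
    simp only [Function.iterate_zero, id_eq] at hm ⊢
    omega
  | succ k ih =>
    intro m hm
    rw [Function.iterate_succ_apply] at hm ⊢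
    by_cases h : 3 ≤ m
    · have h1 := ih _ hm
      refine le_trans ?_ h1
      apply (costStep_mono.iterate k)
      -- clog (m+3) ≤ clog m + 1
      unfold costStep
      have h2 : m ≤ 2 ^ Nat.clog 2 m := Nat.le_pow_clog (by norm_num) m
      have h3 : 1 < Nat.clog 2 m := (Nat.lt_clog_iff_pow_lt (by norm_num)).2 (by omega)
      have h4 : 4 ≤ 2 ^ Nat.clog 2 m := by
        calc 4 = 2 ^ 2 := by norm_num
          _ ≤ 2 ^ Nat.clog 2 m := Nat.pow_le_pow_right (by norm_num) h3
      have h5 : m + 3 ≤ 2 ^ (Nat.clog 2 m + 1) := by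
        rw [pow_succ]
        omega
      have h6 : Nat.clog 2 (m + 3) ≤ Nat.clog 2 m + 1 :=
        Nat.clog_le_of_le_pow h5
      omega
    · apply iter_le_five
      have h1 : Nat.clog 2 (m + 3) ≤ Nat.clog 2 5 := Nat.clog_mono_right 2 (by omega)
      have h2 : Nat.clog 2 5 ≤ 3 := Nat.clog_le_of_le_pow (by norm_num)
      unfold costStep
      omega

/-- The number of levels suffices. -/
theorem iter_final (n : ℕ) : costStep^[logStar n + 1] (2 ^ n) ≤ 5 := by
  rw [Function.iterate_succ_apply]
  have h1 : costStep (2 ^ n) = n + 2 := by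
    unfold costStep
    rw [Nat.clog_pow 2 n (by norm_num)]
  rw [h1]
  refine le_trans ?_ (iter_bound _ n (logStar_spec n))
  exact (costStep_mono.iterate _) (by omega)

/-- Packings on a fractionally covered family have mass at most `1/4`. -/
theorem massBound_of_fracCover {F : Finset (Finset α)} {g : Finset α → ℝ} {p r : ℝ}
    (hp0 : 0 ≤ p) (hg : IsFracCover F g) (hcost : fracCost g p ≤ 1 / 2) (hr0 : 0 ≤ r)
    (hr : r ≤ p / 2) : MassBound F r := by
  intro a ha
  set m := ∑ B ∈ F, a B with hm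
  obtain ⟨hg0, hg1⟩ := hg
  -- double count
  have h1 : m ≤ ∑ S : Finset α, g S * ∑ B ∈ F.filter (fun B => S ⊆ B), a B := by
    calc m = ∑ B ∈ F, a B * 1 := by simp [hm]
      _ ≤ ∑ B ∈ F, a B * ∑ S ∈ B.powerset, g S := by
          apply sum_le_sum
          intro B hB
          exact mul_le_mul_of_nonneg_left (hg1 B hB) (ha.1 B hB)
      _ = ∑ B ∈ F, ∑ S : Finset α, (if S ⊆ B then a B * g S else 0) := by
          apply sum_congr rfl
          intro B _
          rw [mul_sum, ← sum_filter]
          apply sum_congr _ (fun _ _ => rfl)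
          ext S
          simp
      _ = ∑ S : Finset α, ∑ B ∈ F, (if S ⊆ B then a B * g S else 0) := sum_comm
      _ = ∑ S : Finset α, g S * ∑ B ∈ F.filter (fun B => S ⊆ B), a B := by
          apply sum_congr rfl
          intro S _
          rw [mul_sum, sum_filter]
          apply sum_congr rfl
          intro B _
          split_ifs <;> ring
  -- split off the empty set
  have hempty : ∑ B ∈ F.filter (fun B => (∅ : Finset α) ⊆ B), a B = m := by
    rw [hm]
    apply sum_congr _ (fun _ _ => rfl)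
    ext B
    simp
  have hsplit : ∀ f : Finset α → ℝ, ∑ S : Finset α, f S = f ∅ + ∑ S ∈ univ.erase (∅ : Finset α), f S := by
    intro f
    rw [add_sum_erase _ f (mem_univ _)]
  rw [hsplit, hempty] at h1
  have hc := hsplit (fun S => g S * p ^ S.card)
  simp only [card_empty, pow_zero, mul_one] at hc
  unfold fracCost at hcost
  rw [hc] at hcost
  have hnn : ∀ S ∈ univ.erase (∅ : Finset α), 0 ≤ g S * p ^ S.card := fun S _ =>
    mul_nonneg (hg0 S) (pow_nonneg hp0 _)
  have hrest : 0 ≤ ∑ S ∈ univ.erase (∅ : Finset α), g S * p ^ S.card := sum_nonneg hnn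
  have h2 : ∑ S ∈ univ.erase (∅ : Finset α), g S * ∑ B ∈ F.filter (fun B => S ⊆ B), a B
      ≤ (1 / 2) * ∑ S ∈ univ.erase (∅ : Finset α), g S * p ^ S.card := by
    rw [mul_sum]
    apply sum_le_sum
    intro S hS
    have hS0 : S ≠ ∅ := (mem_erase.1 hS).1
    have hcard : 1 ≤ S.card := card_pos.2 (nonempty_iff_ne_empty.2 hS0)
    have h3 : ∑ B ∈ F.filter (fun B => S ⊆ B), a B ≤ (1 / 2) * p ^ S.card := by
      refine (ha.2 S).trans ?_
      calc r ^ S.card ≤ (p / 2) ^ S.card := pow_le_pow_left₀ hr0 hr _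
        _ = p ^ S.card * (1 / 2) ^ S.card := by rw [div_eq_mul_one_div, mul_pow]
        _ ≤ p ^ S.card * (1 / 2) := by
            apply mul_le_mul_of_nonneg_left _ (pow_nonneg hp0 _)
            calc ((1 : ℝ) / 2) ^ S.card ≤ (1 / 2) ^ 1 :=
                  pow_le_pow_of_le_one (by norm_num) (by norm_num) hcard
              _ = 1 / 2 := by norm_num
        _ = (1 / 2) * p ^ S.card := by ring
    calc g S * ∑ B ∈ F.filter (fun B => S ⊆ B), a B ≤ g S * ((1 / 2) * p ^ S.card) :=
          mul_le_mul_of_nonneg_left h3 (hg0 S)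
      _ = 1 / 2 * (g S * p ^ S.card) := by ring
  have hg00 := hg0 ∅
  set c0 := g ∅
  set w := ∑ S ∈ univ.erase (∅ : Finset α), g S * p ^ S.card
  have hm' : m * (1 - c0) ≤ (1 / 2) * w := by nlinarith
  have hc0 : c0 ≤ 1 / 2 := by linarith
  by_contra hcon
  rw [not_le] at hcon
  have h5 : m * (1 - c0) > (1 / 4) * (1 - c0) :=
    mul_lt_mul_of_pos_right hcon (by linarith)
  nlinarith

omit [DecidableEq α] in
theorem famCost_le_two_pow (F : Finset (Finset α)) {d : ℝ} (hd0 : 0 ≤ d) (hd1 : d ≤ 1) :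
    famCost F d ≤ ((2 ^ Fintype.card α : ℕ) : ℝ) := by
  unfold famCost
  calc ∑ B ∈ F, d ^ B.card ≤ ∑ B : Finset α, d ^ B.card := by
        apply sum_le_sum_of_subset_of_nonneg (subset_univ _)
        intro i _ _
        exact pow_nonneg hd0 _
    _ ≤ ∑ _B : Finset α, (1 : ℝ) := by
        apply sum_le_sum
        intro i _
        exact pow_le_one₀ hd0 hd1
    _ = ((2 ^ Fintype.card α : ℕ) : ℝ) := by
        simp [Fintype.card_finset]

/-- The bound at a given `p`: a fractional cover of cost at most `1/2` at `p`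
gives that `F` is `p / (20 (log* |X| + 1))`-small. -/
theorem isSmall_of_fracCover {F : Finset (Finset α)} {g : Finset α → ℝ} {p : ℝ}
    (hp0 : 0 ≤ p) (hp1 : p ≤ 1) (hg : IsFracCover F g) (hcost : fracCost g p ≤ 1 / 2) :
    IsSmall F (p / (20 * ((logStar (Fintype.card α) : ℝ) + 1))) := by
  rcases hp0.eq_or_lt with hp | hp
  · -- p = 0
    subst hp
    simp only [zero_div]
    refine ⟨F, fun H hH => ⟨H, hH, subset_rfl⟩, ?_⟩
    have hne : ∀ H ∈ F, H ≠ ∅ := by
      rintro H hH rfl
      have h1 := hg.2 _ hH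
      simp only [powerset_empty, sum_singleton] at h1
      have h2 : fracCost g 0 = g ∅ := by
        unfold fracCost
        rw [Finset.sum_eq_single (∅ : Finset α)]
        · simp
        · intro S _ hS
          have : S.card ≠ 0 := by
            rwa [Ne, card_eq_zero]
          simp [this]
        · simp
      rw [h2] at hcost
      linarith
    have : ∑ S ∈ F, (0 : ℝ) ^ S.card = 0 := by
      apply sum_eq_zero
      intro H hH
      have : H.card ≠ 0 := by
        rw [Ne, card_eq_zero]
        exact hne H hH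
      simp [this]
    rw [this]
    norm_num
  -- p > 0
  set J := logStar (Fintype.card α) with hJ
  have hJ0 : (0 : ℝ) ≤ J := Nat.cast_nonneg J
  set d : ℝ := p / (2 * ((J : ℝ) + 1)) with hd
  have hd0 : 0 < d := by positivity
  have hd1 : d ≤ 1 := by
    rw [hd, div_le_one (by positivity)]
    linarith
  have hJd : ((J : ℝ) + 1) * d = p / 2 := by
    rw [hd]
    field_simp
  have hM : MassBound F (((J : ℝ) + 1) * d) := by
    apply massBound_of_fracCover hp0 hg hcost (by positivity)
    rw [hJd]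
  obtain ⟨U, h1, h2, h3⟩ := exists_iter hd0 J F (2 ^ Fintype.card α) hM
    (famCost_le_two_pow F hd0.le hd1)
  have h5 : ((costStep^[J + 1] (2 ^ Fintype.card α) : ℕ) : ℝ) ≤ 5 := by
    exact_mod_cast iter_final (Fintype.card α)
  have h6 : famCost U d ≤ 5 := h3.trans h5
  refine ⟨U, h1, ?_⟩
  have hscale : p / (20 * ((J : ℝ) + 1)) = d / 10 := by
    rw [hd]
    field_simp
    ring
  rw [hscale]
  calc ∑ S ∈ U, (d / 10) ^ S.card ≤ ∑ S ∈ U, (d ^ S.card / 10) := by
        apply sum_le_sum
        intro S hS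
        have hS0 : S ≠ ∅ := fun h => h2 (h ▸ hS)
        have hcard : 1 ≤ S.card := card_pos.2 (nonempty_iff_ne_empty.2 hS0)
        rw [div_pow]
        apply div_le_div_of_nonneg_left (pow_nonneg hd0.le _) (by norm_num)
        calc (10 : ℝ) = 10 ^ 1 := by norm_num
          _ ≤ 10 ^ S.card := pow_le_pow_right₀ (by norm_num) hcard
    _ = famCost U d / 10 := by
        rw [famCost, sum_div]
    _ ≤ 1 / 2 := by linarith

/-- The threshold form: `q_f(F) ≤ 20 (log* |X| + 1) q(F)`. -/
theorem fracThreshold_le (F : Finset (Finset α)) :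
    fracThreshold F ≤ 20 * ((logStar (Fintype.card α) : ℝ) + 1) * intThreshold F := by
  have hT : (0 : ℝ) < 20 * ((logStar (Fintype.card α) : ℝ) + 1) := by positivity
  have hq : 0 ≤ intThreshold F := by
    apply Real.sSup_nonneg
    intro x hx
    exact hx.1
  apply Real.sSup_le _ (by positivity)
  rintro p ⟨hp0, hp1, g, hg, hcost⟩
  have h1 := isSmall_of_fracCover hp0 hp1 hg hcost
  have h2 : p / (20 * ((logStar (Fintype.card α) : ℝ) + 1)) ≤ intThreshold F := by
    apply le_csSup
    · refine ⟨1, ?_⟩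
      intro x hx
      exact hx.2.1
    · refine ⟨by positivity, ?_, h1⟩
      rw [div_le_one hT]
      have : (1 : ℝ) ≤ 20 * ((logStar (Fintype.card α) : ℝ) + 1) := by
        have : (0 : ℝ) ≤ (logStar (Fintype.card α) : ℝ) := Nat.cast_nonneg _
        linarith
      linarith
  rwa [div_le_iff₀' hT] at h2

end Vale.Agent.Lib.P034
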