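import Vale.Agent.Lib.P034.Decomp

/-!
One level of the iteration: class bounds and lifting of packings.
-/

namespace Vale.Agent.Lib.P034

open Finset

variable {α : Type*} [DecidableEq α]

/-- `a` is a packing on the family `A` at scale `r`. -/
def IsPacking (A : Finset (Finset α)) (a : Finset α → ℝ) (r : ℝ) : Prop :=
  (∀ B ∈ A, 0 ≤ a B) ∧ ∀ V : Finset α, ∑ B ∈ A.filter (fun B => V ⊆ B), a B ≤ r ^ V.card

/-- Every packing at scale `r` on `A` has mass at most `1/4`. -/
def MassBound (A : Finset (Finset α)) (r : ℝ) : Prop :=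
  ∀ a, IsPacking A a r → ∑ B ∈ A, a B ≤ 1 / 4

/-- The cost of a family at scale `d`. -/
noncomputable def famCost (A : Finset (Finset α)) (d : ℝ) : ℝ := ∑ B ∈ A, d ^ B.card

section step

variable {d : ℝ} (hd : 0 < d) {A : Finset (Finset α)} {c : Finset α → Finset α}
  {Ψ : Finset α → ℝ}
  (hc : ∀ B ∈ A, c B ⊆ B) (hΨ : ∀ B ∈ A, 1 ≤ Ψ (c B))
  (hP1 : ∀ t, 0 ≤ t → ∀ V : Finset α,
    ∑ B ∈ A.filter (fun B => Ψ (c B) ≤ t ∧ V ⊆ B), d ^ B.card ≤ t * d ^ V.card)
  (hP2 : ∀ B ∈ A, ∑ B' ∈ A.filter (fun B' => c B' = c B), d ^ B'.card = Ψ (c B) * d ^ (c B).card)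

include hP2 in
/-- Summing over cores versus summing over sets. -/
theorem sum_core (φ : Finset α → ℝ) :
    ∑ U ∈ A.image c, φ U * (Ψ U * d ^ U.card) = ∑ B ∈ A, φ (c B) * d ^ B.card := by
  apply Finset.sum_image'
  intro B hB
  rw [← hP2 B hB, mul_sum]
  apply sum_congr rfl
  intro B' hB'
  rw [mem_filter] at hB'
  rw [hB'.2]

include hd hc hΨ hP1 hP2 in
/-- The lift: a packing on the cores lifts to a packing on the family, at a scale larger by `d`,
with the same mass. -/
theorem lift_packing {r : ℝ} {a' : Finset α → ℝ} (ha' : IsPacking (A.image c) a' r) :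
    IsPacking A (fun B => a' (c B) * d ^ B.card / (Ψ (c B) * d ^ (c B).card)) (r + d) ∧
    ∑ B ∈ A, a' (c B) * d ^ B.card / (Ψ (c B) * d ^ (c B).card) = ∑ U ∈ A.image c, a' U := by
  have hdpow : ∀ k : ℕ, 0 < d ^ k := fun k => pow_pos hd k
  have hΨpos : ∀ U ∈ A.image c, 0 < Ψ U := by
    intro U hU
    obtain ⟨B, hB, rfl⟩ := mem_image.1 hU
    linarith [hΨ B hB]
  have hr : ∀ U ∈ A.image c, 0 ≤ a' U := ha'.1
  refine ⟨⟨?_, ?_⟩, ?_⟩
  · intro B hB
    have hU : c B ∈ A.image c := mem_image_of_mem c hB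
    have := hr _ hU
    have h2 := hΨpos _ hU
    have h3 := hdpow B.card
    have h4 := hdpow (c B).card
    positivity
  · intro V
    -- fibre over the core
    have hmaps : ∀ B ∈ A.filter (fun B => V ⊆ B), c B ∈ A.image c := by
      intro B hB
      exact mem_image_of_mem c (mem_filter.1 hB).1
    rw [← Finset.sum_fiberwise_of_maps_to hmaps]
    have hstep : ∀ U ∈ A.image c,
        ∑ B ∈ (A.filter (fun B => V ⊆ B)).filter (fun B => c B = U),
            a' (c B) * d ^ B.card / (Ψ (c B) * d ^ (c B).card)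
          ≤ a' U * d ^ (V \ U).card := by
      intro U hU
      have hUpos := hΨpos U hU
      have h0 : ∀ B ∈ (A.filter (fun B => V ⊆ B)).filter (fun B => c B = U),
          a' (c B) * d ^ B.card / (Ψ (c B) * d ^ (c B).card)
            = a' U / (Ψ U * d ^ U.card) * d ^ B.card := by
        intro B hB
        rw [mem_filter] at hB
        rw [hB.2]
        ring
      rw [sum_congr rfl h0, ← mul_sum]
      have hsub : ∑ B ∈ (A.filter (fun B => V ⊆ B)).filter (fun B => c B = U), d ^ B.card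
          ≤ Ψ U * d ^ (U ∪ V).card := by
        refine le_trans ?_ (hP1 (Ψ U) hUpos.le (U ∪ V))
        apply sum_le_sum_of_subset_of_nonneg
        · intro B hB
          rw [mem_filter, mem_filter] at hB
          rw [mem_filter]
          obtain ⟨⟨hBA, hVB⟩, hcB⟩ := hB
          refine ⟨hBA, by rw [hcB], ?_⟩
          apply union_subset _ hVB
          rw [← hcB]
          exact hc B hBA
        · intro i _ _
          exact (hdpow _).le
      have hcard : (U ∪ V).card = U.card + (V \ U).card := by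
        rw [← card_union_of_disjoint disjoint_sdiff, union_sdiff_self_eq_union]
      have hpos2 : 0 < Ψ U * d ^ U.card := mul_pos hUpos (hdpow _)
      calc a' U / (Ψ U * d ^ U.card) *
            ∑ B ∈ (A.filter (fun B => V ⊆ B)).filter (fun B => c B = U), d ^ B.card
          ≤ a' U / (Ψ U * d ^ U.card) * (Ψ U * d ^ (U ∪ V).card) := by
            apply mul_le_mul_of_nonneg_left hsub
            exact div_nonneg (hr U hU) hpos2.le
        _ = a' U * d ^ (V \ U).card := by
            rw [hcard, pow_add]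
            field_simp
    refine (sum_le_sum hstep).trans ?_
    -- group by the intersection with V
    have hmaps2 : ∀ U ∈ A.image c, V ∩ U ∈ V.powerset := by
      intro U _
      exact mem_powerset.2 inter_subset_left
    rw [← Finset.sum_fiberwise_of_maps_to hmaps2]
    have hstep2 : ∀ R ∈ V.powerset,
        ∑ U ∈ (A.image c).filter (fun U => V ∩ U = R), a' U * d ^ (V \ U).card
          ≤ r ^ R.card * d ^ (V.card - R.card) := by
      intro R hR
      have hRV := mem_powerset.1 hR
      have h0 : ∀ U ∈ (A.image c).filter (fun U => V ∩ U = R),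
          a' U * d ^ (V \ U).card = a' U * d ^ (V.card - R.card) := by
        intro U hU
        rw [mem_filter] at hU
        have : (V \ U).card = V.card - R.card := by
          have h9 := Finset.card_sdiff_add_card_inter V U
          rw [← hU.2]
          omega
        rw [this]
      rw [sum_congr rfl h0, ← sum_mul]
      apply mul_le_mul_of_nonneg_right _ (hdpow _).le
      refine le_trans ?_ (ha'.2 R)
      apply sum_le_sum_of_subset_of_nonneg
      · intro U hU
        rw [mem_filter] at hU ⊢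
        refine ⟨hU.1, ?_⟩
        rw [← hU.2]
        exact inter_subset_right
      · intro i hi _
        exact hr i (mem_filter.1 hi).1
    refine (sum_le_sum hstep2).trans ?_
    rw [Finset.sum_pow_mul_eq_add_pow]
  · -- the mass
    symm
    apply Finset.sum_image'
    intro B hB
    have hU : c B ∈ A.image c := mem_image_of_mem c hB
    have hpos2 : 0 < Ψ (c B) * d ^ (c B).card := mul_pos (hΨpos _ hU) (hdpow _)
    have h0 : ∀ B' ∈ A.filter (fun B' => c B' = c B),
        a' (c B') * d ^ B'.card / (Ψ (c B') * d ^ (c B').card)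
          = a' (c B) / (Ψ (c B) * d ^ (c B).card) * d ^ B'.card := by
      intro B' hB'
      rw [mem_filter] at hB'
      rw [hB'.2]
      ring
    rw [sum_congr rfl h0, ← mul_sum, hP2 B hB]
    have hne : Ψ (c B) ≠ 0 := (hΨpos _ hU).ne'
    have hne2 : d ^ (c B).card ≠ 0 := (hdpow _).ne'
    field_simp

include hd hP1 in
/-- The sets with core value at most `T` have total weight at most `T/4`. -/
theorem weight_le_of_massBound {r : ℝ} (hr : 0 ≤ r) (hM : MassBound A (r + d)) {T : ℝ} (hT : 0 < T) :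
    ∑ B ∈ A.filter (fun B => Ψ (c B) ≤ T), d ^ B.card ≤ T * (1 / 4) := by
  have hdpow : ∀ k : ℕ, 0 < d ^ k := fun k => pow_pos hd k
  have hpack : IsPacking A (fun B => if Ψ (c B) ≤ T then d ^ B.card / T else 0) (r + d) := by
    refine ⟨?_, ?_⟩
    · intro B _
      dsimp only
      split_ifs
      · exact div_nonneg (hdpow _).le hT.le
      · exact le_rfl
    · intro V
      have h1 : ∑ B ∈ A.filter (fun B => V ⊆ B), (if Ψ (c B) ≤ T then d ^ B.card / T else 0)
          = (∑ B ∈ A.filter (fun B => Ψ (c B) ≤ T ∧ V ⊆ B), d ^ B.card) / T := by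
        rw [sum_div, ← sum_filter, filter_filter]
        apply sum_congr _ (fun _ _ => rfl)
        ext B
        simp only [mem_filter]
        tauto
      rw [h1, div_le_iff₀ hT]
      refine (hP1 T hT.le V).trans ?_
      rw [mul_comm]
      apply mul_le_mul_of_nonneg_right _ hT.le
      apply pow_le_pow_left₀ hd.le
      linarith
  have := hM _ hpack
  have h2 : ∑ B ∈ A, (if Ψ (c B) ≤ T then d ^ B.card / T else 0)
      = (∑ B ∈ A.filter (fun B => Ψ (c B) ≤ T), d ^ B.card) / T := by
    rw [sum_div, ← sum_filter]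
  rw [h2, div_le_iff₀ hT] at this
  linarith

include hd hP1 hP2 hΨ in
/-- The cores in the dyadic class `(T/2, T]` have total cost at most `1/2`. -/
theorem class_bound {r : ℝ} (hr : 0 ≤ r) (hM : MassBound A (r + d)) {T : ℝ} (hT : 0 < T) :
    ∑ U ∈ (A.image c).filter (fun U => T / 2 < Ψ U ∧ Ψ U ≤ T), d ^ U.card ≤ 1 / 2 := by
  have hdpow : ∀ k : ℕ, 0 < d ^ k := fun k => pow_pos hd k
  have hΨpos : ∀ U ∈ A.image c, 0 < Ψ U := by
    intro U hU
    obtain ⟨B, hB, rfl⟩ := mem_image.1 hU
    linarith [hΨ B hB]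
  have h1 := weight_le_of_massBound hd hP1 hr hM hT
  have h2 := sum_core (A := A) (c := c) (Ψ := Ψ) (d := d) hP2 (fun U => if Ψ U ≤ T then 1 else 0)
  have h3 : ∑ B ∈ A, (if Ψ (c B) ≤ T then (1 : ℝ) else 0) * d ^ B.card
      = ∑ B ∈ A.filter (fun B => Ψ (c B) ≤ T), d ^ B.card := by
    rw [sum_filter]
    apply sum_congr rfl
    intro B _
    split_ifs <;> simp
  have h4 : ∑ U ∈ (A.image c).filter (fun U => T / 2 < Ψ U ∧ Ψ U ≤ T), d ^ U.card
      ≤ ∑ U ∈ A.image c, (2 / T) * ((if Ψ U ≤ T then (1 : ℝ) else 0) * (Ψ U * d ^ U.card)) := by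
    calc ∑ U ∈ (A.image c).filter (fun U => T / 2 < Ψ U ∧ Ψ U ≤ T), d ^ U.card
        ≤ ∑ U ∈ (A.image c).filter (fun U => T / 2 < Ψ U ∧ Ψ U ≤ T),
            (2 / T) * ((if Ψ U ≤ T then (1 : ℝ) else 0) * (Ψ U * d ^ U.card)) := by
          apply sum_le_sum
          intro U hU
          rw [mem_filter] at hU
          obtain ⟨_, h5, h6⟩ := hU
          rw [if_pos h6, one_mul]
          have h7 := hdpow U.card
          have h8 : 1 ≤ 2 / T * Ψ U := by
            rw [div_mul_eq_mul_div, le_div_iff₀ hT]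
            linarith
          calc d ^ U.card = 1 * d ^ U.card := (one_mul _).symm
            _ ≤ (2 / T * Ψ U) * d ^ U.card := mul_le_mul_of_nonneg_right h8 h7.le
            _ = 2 / T * (Ψ U * d ^ U.card) := by ring
      _ ≤ _ := by
          apply sum_le_sum_of_subset_of_nonneg (filter_subset _ _)
          intro U hU _
          have := hΨpos U hU
          have h7 := hdpow U.card
          split_ifs <;> positivity
  rw [← mul_sum, h2, h3] at h4
  calc _ ≤ 2 / T * ∑ B ∈ A.filter (fun B => Ψ (c B) ≤ T), d ^ B.card := h4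
    _ ≤ 2 / T * (T * (1 / 4)) := by
        apply mul_le_mul_of_nonneg_left h1 (by positivity)
    _ = 1 / 2 := by
        field_simp
        norm_num

include hd hP2 hΨ in
/-- The cores with large value have small total cost. -/
theorem top_bound {R : ℝ} (hR : 0 < R) :
    ∑ U ∈ (A.image c).filter (fun U => R < Ψ U), d ^ U.card ≤ famCost A d / R := by
  have hdpow : ∀ k : ℕ, 0 < d ^ k := fun k => pow_pos hd k
  have hΨpos : ∀ U ∈ A.image c, 0 < Ψ U := by
    intro U hU
    obtain ⟨B, hB, rfl⟩ := mem_image.1 hU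
    linarith [hΨ B hB]
  have h2 := sum_core (A := A) (c := c) (Ψ := Ψ) (d := d) hP2 (fun _ => 1)
  simp only [one_mul] at h2
  rw [famCost, ← h2, le_div_iff₀ hR, sum_mul]
  calc ∑ U ∈ (A.image c).filter (fun U => R < Ψ U), d ^ U.card * R
      ≤ ∑ U ∈ (A.image c).filter (fun U => R < Ψ U), Ψ U * d ^ U.card := by
        apply sum_le_sum
        intro U hU
        rw [mem_filter] at hU
        have h7 := hdpow U.card
        rw [mul_comm]
        exact mul_le_mul_of_nonneg_right hU.2.le h7.le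
    _ ≤ ∑ U ∈ A.image c, Ψ U * d ^ U.card := by
        apply sum_le_sum_of_subset_of_nonneg (filter_subset _ _)
        intro U hU _
        have := hΨpos U hU
        have h7 := hdpow U.card
        positivity

/-- Every real at least `1` and at most `2^κ` lies in a dyadic class `(2^k/2, 2^k]`, `k ≤ κ`. -/
theorem exists_dyadic {x : ℝ} (h1 : 1 ≤ x) (κ : ℕ) (h2 : x ≤ 2 ^ κ) :
    ∃ k ∈ range (κ + 1), (2 : ℝ) ^ k / 2 < x ∧ x ≤ 2 ^ k := by
  induction κ with
  | zero =>
    refine ⟨0, by simp, by norm_num; linarith, by simpa using h2⟩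
  | succ n ih =>
    by_cases h3 : x ≤ 2 ^ n
    · obtain ⟨k, hk, hk2⟩ := ih h3
      exact ⟨k, by rw [mem_range] at hk ⊢; omega, hk2⟩
    · refine ⟨n + 1, by simp, ?_, h2⟩
      rw [not_le] at h3
      rw [pow_succ]
      linarith

include hd hΨ hP1 hP2 in
/-- The cost of the cores: at most `κ + 2` when the family has cost at most `2^κ`. -/
theorem cost_image_le {r : ℝ} (hr : 0 ≤ r) (hM : MassBound A (r + d)) {κ : ℕ}
    (hcost : famCost A d ≤ 2 ^ κ) :
    famCost (A.image c) d ≤ κ + 2 := by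
  have hdpow : ∀ k : ℕ, 0 < d ^ k := fun k => pow_pos hd k
  have hpt : ∀ U ∈ A.image c, d ^ U.card ≤
      ∑ k ∈ range (κ + 1),
        (if (2 : ℝ) ^ k / 2 < Ψ U ∧ Ψ U ≤ 2 ^ k then d ^ U.card else 0)
      + (if (2 : ℝ) ^ κ < Ψ U then d ^ U.card else 0) := by
    intro U hU
    obtain ⟨B, hB, rfl⟩ := mem_image.1 hU
    have hnn : ∀ k ∈ range (κ + 1), (0 : ℝ) ≤
        (if (2 : ℝ) ^ k / 2 < Ψ (c B) ∧ Ψ (c B) ≤ 2 ^ k then d ^ (c B).card else 0) := by
      intro k _
      split_ifs
      · exact (hdpow _).le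
      · exact le_rfl
    by_cases htop : (2 : ℝ) ^ κ < Ψ (c B)
    · rw [if_pos htop]
      have := sum_nonneg hnn
      linarith
    · rw [if_neg htop, add_zero]
      rw [not_lt] at htop
      obtain ⟨k, hk, hk2⟩ := exists_dyadic (hΨ B hB) κ htop
      have := Finset.single_le_sum hnn hk
      rw [if_pos hk2] at this
      exact this
  have hsum : famCost (A.image c) d ≤ ((κ : ℝ) + 1) * (1 / 2) + 1 := by
    rw [famCost]
    refine (sum_le_sum hpt).trans ?_
    rw [sum_add_distrib, sum_comm]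
    have h1 : ∀ k ∈ range (κ + 1), ∑ U ∈ A.image c,
        (if (2 : ℝ) ^ k / 2 < Ψ U ∧ Ψ U ≤ 2 ^ k then d ^ U.card else 0) ≤ 1 / 2 := by
      intro k _
      rw [← sum_filter]
      exact class_bound hd hΨ hP1 hP2 hr hM (pow_pos (by norm_num) k)
    have h2 : ∑ U ∈ A.image c, (if (2 : ℝ) ^ κ < Ψ U then d ^ U.card else 0) ≤ 1 := by
      rw [← sum_filter]
      refine (top_bound hd hΨ hP2 (pow_pos (by norm_num) κ)).trans ?_
      rw [div_le_one (pow_pos (by norm_num) κ)]
      exact hcost
    have h3 := sum_le_sum h1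
    rw [sum_const, card_range, nsmul_eq_mul] at h3
    push_cast at h3
    linarith
  have hκ : (0 : ℝ) ≤ κ := Nat.cast_nonneg κ
  linarith

include hd hΨ hP1 hP2 in
/-- No core is empty. -/
theorem empty_notMem_image {r : ℝ} (hr : 0 ≤ r) (hM : MassBound A (r + d)) :
    ∅ ∉ A.image c := by
  intro h0
  obtain ⟨B, hB, hB0⟩ := mem_image.1 h0
  have hT : 0 < Ψ ∅ := by
    rw [← hB0]
    linarith [hΨ B hB]
  have h1 := class_bound hd hΨ hP1 hP2 hr hM hT
  have h2 : (∅ : Finset α) ∈ (A.image c).filter (fun U => Ψ ∅ / 2 < Ψ U ∧ Ψ U ≤ Ψ ∅) := by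
    rw [mem_filter]
    refine ⟨h0, by linarith, le_rfl⟩
  have h3 := Finset.single_le_sum (f := fun U : Finset α => d ^ U.card)
    (fun i _ => (pow_pos hd _).le) h2
  simp only [card_empty, pow_zero] at h3
  linarith

end step

/-- One full step: from a family to its cores. -/
theorem exists_step [Fintype α] {d r : ℝ} (hd : 0 < d) (hr : 0 ≤ r) {A : Finset (Finset α)} {κ : ℕ}
    (hM : MassBound A (r + d)) (hcost : famCost A d ≤ 2 ^ κ) :
    ∃ U : Finset (Finset α), (∀ B ∈ A, ∃ S ∈ U, S ⊆ B) ∧ ∅ ∉ U ∧ MassBound U r ∧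
      famCost U d ≤ κ + 2 := by
  obtain ⟨c, Ψ, hc, hΨ, hP1, hP2⟩ := exists_decomp hd A
  refine ⟨A.image c, ?_, empty_notMem_image hd hΨ hP1 hP2 hr hM, ?_,
    cost_image_le hd hΨ hP1 hP2 hr hM hcost⟩
  · intro B hB
    exact ⟨c B, mem_image_of_mem c hB, hc B hB⟩
  · intro a' ha'
    obtain ⟨h1, h2⟩ := lift_packing hd hc hΨ hP1 hP2 ha'
    rw [← h2]
    exact hM _ h1

end Vale.Agent.Lib.P034
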